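import Vale.Agent.P125.Tree

namespace Vale.Agent.P125

open Finset Filter Topology

theorem growth (u : ℕ → ℝ) {c C : ℝ} (d t : ℕ) (hc : 0 < c) (h1 : ∀ R, c ≤ u R)
    (h2 : ∀ R, u R ≤ C * ((R : ℝ) + 1) ^ d) : ∃ R, u (R + t) ≤ 2 * u R := by
  by_contra h
  push Not at h
  have h3 : ∀ j : ℕ, 2 ^ j * c ≤ u (j * t) := by
    intro j
    induction j with
    | zero => simpa using h1 0
    | succ j ih =>
      have := h (j * t)
      rw [add_mul, one_mul, pow_succ]
      linarith
  have hC : 0 < C := by
    have := (h1 0).trans (h2 0)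
    simp at this; linarith
  have h4 : ∀ j : ℕ, 1 ≤ j → c / (C * ((t : ℝ) + 1) ^ d) ≤ (j : ℝ) ^ d / 2 ^ j := by
    intro j hj
    have a := (h3 j).trans (h2 _)
    have hj' : (1 : ℝ) ≤ j := by exact_mod_cast hj
    have b : (((j * t : ℕ) : ℝ) + 1) ^ d ≤ ((j : ℝ) * ((t : ℝ) + 1)) ^ d := by
      refine pow_le_pow_left₀ (by positivity) ?_ d
      push_cast; nlinarith
    rw [div_le_div_iff₀ (by positivity) (by positivity)]
    rw [mul_pow] at b
    nlinarith
  have h5 := tendsto_pow_const_div_const_pow_of_one_lt d (show (1 : ℝ) < 2 by norm_num)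
  have h6 := ge_of_tendsto h5 (eventually_atTop.2 ⟨1, h4⟩)
  have : 0 < c / (C * ((t : ℝ) + 1) ^ d) := by positivity
  linarith

theorem exists_folner {Y E : Type} [AddCommGroup Y] [Fintype E] (g : E → Y) (t : ℕ) :
    ∃ A : ℕ → Finset Y, (∀ s a e, a ∈ A s → a + g e ∈ A (s + 1)) ∧ (∀ s ≤ t, A s ⊆ A t) ∧
      (A 0).Nonempty ∧ ((A t).card : ℝ) ≤ 2 * (A 0).card := by
  classical
  let A : ℕ → Finset Y := fun R =>
    (Fintype.piFinset fun _ : E => range (R + 1)).image fun h => ∑ e, h e • g e
  have hA0 : ∀ R, (A R).Nonempty := fun R =>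
    ⟨_, mem_image_of_mem _ (Fintype.mem_piFinset.2 fun _ => mem_range.2 (Nat.succ_pos R) :
      (fun _ => 0) ∈ _)⟩
  have hmono : ∀ R R', R ≤ R' → A R ⊆ A R' := fun R R' h =>
    image_subset_image (Fintype.piFinset_subset _ _ fun _ => range_mono (by omega))
  obtain ⟨R, hR⟩ := growth (fun R => ((A R).card : ℝ)) (c := 1) (C := 1) (Fintype.card E) t
    one_pos (fun R => by exact_mod_cast (hA0 R).card_pos) (fun R => by
      have : (A R).card ≤ (R + 1) ^ Fintype.card E := by
        refine card_image_le.trans ?_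
        simp [Fintype.card_piFinset]
      rw [one_mul]; exact_mod_cast this)
  refine ⟨fun s => A (R + s), fun s a e ha => ?_, fun s hs => hmono _ _ (by omega), hA0 _, hR⟩
  obtain ⟨h, hh, rfl⟩ := mem_image.1 ha
  refine mem_image.2 ⟨h + Pi.single e 1, Fintype.mem_piFinset.2 fun e' => ?_, ?_⟩
  · have := mem_range.1 (Fintype.mem_piFinset.1 hh e')
    rw [mem_range, Pi.add_apply, Pi.single_apply]
    split_ifs <;> omega
  · simp [add_smul, sum_add_distrib, Pi.single_apply, ite_smul]

section
variable {E V Lb : Type} [Fintype E] [DecidableEq V] [DecidableEq Lb]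

/-- vertex weights -/
noncomputable def pv (tail : E → V) (w : E → ℝ) (v : V) : ℝ := ∑ e, if tail e = v then w e else 0

/-- labelled vertex weights -/
noncomputable def pl (tail : E → V) (lab : E → Lb) (w : E → ℝ) (v : V) (α : Lb) : ℝ :=
  ∑ e, if tail e = v ∧ lab e = α then w e else 0

/-- probability of no label collision -/
noncomputable def gam (tail : E → V) (rev : E → E) (lab : E → Lb) (w : E → ℝ) :
    ℕ → V → Lb → ℝ
  | 0, _, _ => 1
  | r + 1, v, β => ∑ e, if tail e = v ∧ lab e ≠ β then
      w e / pv tail w v * gam tail rev lab w r (tail (rev e)) (lab (rev e)) else 0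

theorem pv_pos (tail : E → V) {w : E → ℝ} (hw : ∀ e, 0 < w e) (e : E) :
    0 < pv tail w (tail e) := by
  refine sum_pos' (fun e' _ => ?_) ⟨e, mem_univ _, by simpa using hw e⟩
  split_ifs
  · exact (hw _).le
  · exact le_rfl

theorem pv_nonneg (tail : E → V) {w : E → ℝ} (hw : ∀ e, 0 < w e) (v : V) :
    0 ≤ pv tail w v := by
  refine sum_nonneg (fun e' _ => ?_)
  split_ifs
  · exact (hw _).le
  · exact le_rfl

theorem gam_bound (tail : E → V) (rev : E → E) (lab : E → Lb) {w : E → ℝ} (hw : ∀ e, 0 < w e)
    (r : ℕ) (v : V) (β : Lb) : 0 ≤ gam tail rev lab w r v β ∧ gam tail rev lab w r v β ≤ 1 := by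
  induction r generalizing v β with
  | zero => simp [gam]
  | succ r ih =>
    have hp := pv_nonneg tail hw v
    constructor
    · refine sum_nonneg fun e _ => ?_
      have := (ih (tail (rev e)) (lab (rev e))).1
      have := hw e
      split_ifs
      · positivity
      · exact le_rfl
    · refine le_trans (sum_le_sum (g := fun e => (if tail e = v then w e else 0) / pv tail w v)
        fun e _ => ?_) ?_
      · have h1 := ih (tail (rev e)) (lab (rev e))
        have h2 : 0 ≤ w e / pv tail w v := by have := hw e; positivity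
        by_cases h : tail e = v
        · by_cases h' : lab e ≠ β
          · simp only [h, h', and_self, if_true, ne_eq, not_false_eq_true]
            exact mul_le_of_le_one_right h2 h1.2
          · simp only [h, h', and_false, if_true, if_false]; exact h2
        · simp [h]
      · rw [← sum_div]
        exact div_le_one_of_le₀ le_rfl hp

theorem gam_total (tail : E → V) (rev : E → E) (hrev : Function.Involutive rev) (lab : E → Lb)
    {w : E → ℝ} (hw : ∀ e, 0 < w e) (hwr : ∀ e, w (rev e) = w e) (hw1 : ∑ e, w e = 1) {κ : ℝ}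
    (hκ : ∑ e, w e * (pl tail lab w (tail e) (lab e) / pv tail w (tail e)) ≤ κ) (r : ℕ) :
    1 - r * κ ≤ ∑ e, w e * gam tail rev lab w r (tail e) (lab e) := by
  induction r with
  | zero => simp [gam, hw1]
  | succ r ih =>
    have e1 : ∑ e, w e * gam tail rev lab w (r + 1) (tail e) (lab e) =
        ∑ e, w e * gam tail rev lab w r (tail (rev e)) (lab (rev e)) *
          (1 - pl tail lab w (tail e) (lab e) / pv tail w (tail e)) := by
      simp only [gam, mul_sum]
      rw [sum_comm]
      refine sum_congr rfl fun e' _ => ?_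
      have hp := pv_pos tail hw e'
      have : (1 - pl tail lab w (tail e') (lab e') / pv tail w (tail e')) =
          ∑ e, (if tail e' = tail e ∧ lab e' ≠ lab e then w e else 0) / pv tail w (tail e') := by
        rw [← sum_div, eq_div_iff hp.ne', sub_mul, one_mul, div_mul_cancel₀ _ hp.ne', pv, pl,
          ← sum_sub_distrib]
        refine sum_congr rfl fun e _ => ?_
        simp only [eq_comm (a := tail e'), ne_comm (a := lab e')]
        by_cases h : tail e = tail e' <;> by_cases h' : lab e = lab e' <;> simp [h, h']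
      rw [this, mul_sum]
      refine sum_congr rfl fun e _ => ?_
      split_ifs with h
      · rw [← h.1]; ring
      · simp
    have e2 : ∑ e, w e * gam tail rev lab w r (tail (rev e)) (lab (rev e)) =
        ∑ e, w e * gam tail rev lab w r (tail e) (lab e) := by
      rw [← Equiv.sum_comp hrev.toPerm]
      simp [hwr, hrev _]
    rw [e1]
    simp only [mul_sub, mul_one, sum_sub_distrib, e2]
    have : ∑ e, w e * gam tail rev lab w r (tail (rev e)) (lab (rev e)) *
        (pl tail lab w (tail e) (lab e) / pv tail w (tail e)) ≤ κ := by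
      refine le_trans (sum_le_sum fun e _ => ?_) hκ
      have h1 := gam_bound tail rev lab hw r (tail (rev e)) (lab (rev e))
      have h2 : 0 ≤ pl tail lab w (tail e) (lab e) / pv tail w (tail e) := by
        refine div_nonneg (sum_nonneg fun e' _ => ?_) (pv_pos tail hw e).le
        split_ifs
        · exact (hw _).le
        · exact le_rfl
      exact mul_le_mul_of_nonneg_right (mul_le_of_le_one_right (hw e).le h1.2) h2
    push_cast
    linarith

set_option maxHeartbeats 1000000 in
theorem chain_bound [Fintype V] {Y : Type} [AddCommGroup Y] {Ψ : Y → ℝ} {C : ℝ} (hM : MI Ψ C)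
    (hΨ : ∀ a, 0 ≤ Ψ a) (hz : Ψ 0 = 0) (hC : 0 ≤ C)
    (tail : E → V) (rev : E → E) (hrev : Function.Involutive rev) (lab : E → Lb)
    {w : E → ℝ} (hw : ∀ e, 0 < w e) (hwr : ∀ e, w (rev e) = w e) (hw1 : ∑ e, w e = 1)
    (hsurj : Function.Surjective tail) (g : E → Y) (hg : ∀ e, g (rev e) = -g e)
    (Inv : ℕ → V → Lb → Y → Prop) (t : ℕ) (ht : 1 ≤ t) {c : ℝ} (hc : 0 ≤ c)
    (h0 : ∀ v β, Inv 0 v β 0)
    (hstep : ∀ s < t, ∀ e β a, Inv s (tail e) β a → lab e ≠ β →
      Inv (s + 1) (tail (rev e)) (lab (rev e)) (a + g e))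
    (hfin : ∀ v β a, Inv t v β a → c ≤ Ψ a) :
    c * ∑ e, w e * gam tail rev lab w t (tail e) (lab e) ≤ 2 * (C * t * ∑ e, w e * Ψ (g e)) := by
  classical
  obtain ⟨A, hA1, hA2, hA3, hA4⟩ := exists_folner g t
  have hn : (0 : ℝ) < (A t).card := by
    exact_mod_cast (hA3.mono (hA2 0 (Nat.zero_le _))).card_pos
  have hpv : ∀ v, 0 < pv tail w v := fun v => by
    obtain ⟨e, rfl⟩ := hsurj v; exact pv_pos tail hw e
  let step : V × A t → E → V × A t := fun x e =>
    if h : x.2.1 + g e ∈ A t then (tail (rev e), ⟨_, h⟩) else x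
  let P : Matrix (V × A t) (V × A t) ℝ := fun x y =>
    ∑ e, if tail e = x.1 ∧ step x e = y then w e / pv tail w x.1 else 0
  let μ : V × A t → ℝ := fun x => pv tail w x.1 / (A t).card
  have hP0 : ∀ x y, 0 ≤ P x y := fun x y => sum_nonneg fun e _ => by
    have := hw e; have := hpv x.1
    split_ifs
    · positivity
    · exact le_rfl
  have hPF : ∀ x (F : V × A t → ℝ), ∑ y, P x y * F y =
      ∑ e, if tail e = x.1 then w e / pv tail w x.1 * F (step x e) else 0 := by
    intro x F
    simp only [P, sum_mul]
    rw [sum_comm]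
    refine sum_congr rfl fun e _ => ?_
    by_cases h : tail e = x.1 <;> simp [h]
  have hμF : ∀ F : V × A t → ℝ, ∑ x, μ x * F x =
      ∑ e, ∑ a : A t, w e / (A t).card * F (tail e, a) := by
    intro F
    rw [Fintype.sum_prod_type]
    simp only [μ, pv, sum_div, sum_mul]
    simp only [sum_comm (s := (univ : Finset (A t))) (t := (univ : Finset E))]
    rw [sum_comm]
    refine sum_congr rfl fun e _ => ?_
    rw [sum_comm]
    refine sum_congr rfl fun a _ => ?_
    simp [ite_div]
  have hback : ∀ x y e, x ≠ y → tail e = x.1 ∧ step x e = y →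
      tail (rev e) = y.1 ∧ step y (rev e) = x := by
    rintro x y e hxy ⟨h1, h2⟩
    by_cases h : x.2.1 + g e ∈ A t
    · simp only [step, dif_pos h] at h2
      subst h2
      refine ⟨rfl, ?_⟩
      have h' : x.2.1 + g e + g (rev e) = x.2.1 := by rw [hg]; abel
      have h'' : x.2.1 + g e + g (rev e) ∈ A t := by rw [h']; exact x.2.2
      simp only [step, dif_pos h'', hrev e]
      exact Prod.ext h1 (Subtype.ext h')
    · simp only [step, dif_neg h] at h2
      exact absurd h2 hxy
  have hμP : ∀ x y, μ x * P x y =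
      (∑ e, if tail e = x.1 ∧ step x e = y then w e else 0) / (A t).card := by
    intro x y
    simp only [μ, P, mul_sum, sum_div]
    refine sum_congr rfl fun e _ => ?_
    have := hpv x.1
    split_ifs
    · field_simp
    · simp
  have main := hM (V × A t) μ P (fun x => by have := hpv x.1; positivity) (by
      have := hμF fun _ => 1
      simp only [mul_one, sum_const, card_univ, Fintype.card_coe, nsmul_eq_mul] at this
      rw [this, ← hw1]
      exact sum_congr rfl fun e _ => by field_simp) hP0 (fun x => by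
      have := hPF x fun _ => 1
      simp only [mul_one] at this
      rw [this, ← div_self (hpv x.1).ne', pv, sum_div]
      exact sum_congr rfl fun e _ => by split_ifs <;> simp) (fun x y => by
      rcases eq_or_ne x y with rfl | hxy
      · rfl
      rw [hμP, hμP, ← Equiv.sum_comp hrev.toPerm]
      congr 1
      refine sum_congr rfl fun e _ => ?_
      simp only [Function.Involutive.coe_toPerm, hwr]
      refine if_congr ⟨fun h => ?_, hback y x e hxy.symm⟩ rfl rfl
      simpa only [hrev e] using hback x y (rev e) hxy h) (fun x => x.2.1) t ht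
  have low : ∀ r s, s + r = t → ∀ (x : V × A t) z β, x.2.1 ∈ A s → Inv s x.1 β (x.2.1 - z) →
      c * gam tail rev lab w r x.1 β ≤ ∑ y, (P ^ r) x y * Ψ (y.2.1 - z) := by
    intro r
    induction r with
    | zero =>
      intro s hs x z β _ hI
      obtain rfl : s = t := by omega
      simpa [gam, Matrix.one_apply] using hfin _ _ _ hI
    | succ r ih =>
      intro s hs x z β hx hI
      have e1 : ∑ y, (P ^ (r + 1)) x y * Ψ (y.2.1 - z) =
          ∑ u, P x u * ∑ y, (P ^ r) u y * Ψ (y.2.1 - z) := by
        simp only [pow_succ', Matrix.mul_apply, sum_mul, mul_sum, mul_assoc]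
        rw [sum_comm]
      rw [e1, hPF, gam, mul_sum]
      refine sum_le_sum fun e _ => ?_
      have hq : 0 ≤ w e / pv tail w x.1 := by have := hw e; have := hpv x.1; positivity
      by_cases h : tail e = x.1 ∧ lab e ≠ β
      · have h1 := hA1 s _ e hx
        have h2 : x.2.1 + g e ∈ A t := hA2 (s + 1) (by omega) h1
        have h3 := hstep s (by omega) e β _ (h.1 ▸ hI) h.2
        have h4 := ih (s + 1) (by omega) (tail (rev e), ⟨_, h2⟩) z (lab (rev e)) h1
          (by rw [show x.2.1 + g e - z = x.2.1 - z + g e by abel]; exact h3)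
        rw [if_pos h, if_pos h.1, mul_left_comm]
        simp only [step, dif_pos h2]
        exact mul_le_mul_of_nonneg_left h4 hq
      · rw [if_neg h, mul_zero]
        split_ifs
        · exact mul_nonneg hq (sum_nonneg fun y _ =>
            mul_nonneg (Matrix.pow_apply_nonneg hP0 _ _ _) (hΨ _))
        · exact le_rfl
  simp only [mul_assoc, ← mul_sum] at main
  rw [hμF, hμF] at main
  have up : ∑ e, ∑ a : A t, w e / (A t).card * ∑ y, P (tail e, a) y * Ψ (y.2.1 - a.1) ≤
      ∑ e, w e * Ψ (g e) := by
    have b1 : ∀ x : V × A t, ∑ y, P x y * Ψ (y.2.1 - x.2.1) ≤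
        ∑ e, if tail e = x.1 then w e / pv tail w x.1 * Ψ (g e) else 0 := by
      intro x
      rw [hPF]
      refine sum_le_sum fun e _ => ?_
      have hq : 0 ≤ w e / pv tail w x.1 := by have := hw e; have := hpv x.1; positivity
      split_ifs
      · refine mul_le_mul_of_nonneg_left ?_ hq
        by_cases h : x.2.1 + g e ∈ A t
        · simp [step, dif_pos h]
        · simp [step, dif_neg h, hz, hΨ]
      · exact le_rfl
    refine le_trans (sum_le_sum fun e _ => sum_le_sum fun a _ => mul_le_mul_of_nonneg_left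
      (b1 (tail e, a)) (by have := hw e; positivity)) (le_of_eq ?_)
    simp only [sum_const, card_univ, Fintype.card_coe, nsmul_eq_mul, mul_sum]
    rw [sum_comm]
    refine sum_congr rfl fun e' _ => ?_
    have hp := hpv (tail e')
    have : w e' * Ψ (g e') =
        (∑ e, if tail e = tail e' then w e else 0) * (w e' / pv tail w (tail e') * Ψ (g e')) := by
      change _ = pv tail w (tail e') * _
      field_simp
    rw [this, sum_mul]
    refine sum_congr rfl fun e _ => ?_
    by_cases h : tail e = tail e'
    · simp only [h, if_true]; field_simp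
    · simp [h, Ne.symm h]
  have dn : c * (∑ e, w e * gam tail rev lab w t (tail e) (lab e)) / 2 ≤
      ∑ e, ∑ a : A t, w e / (A t).card * ∑ y, (P ^ t) (tail e, a) y * Ψ (y.2.1 - a.1) := by
    rw [mul_sum, sum_div]
    refine sum_le_sum fun e _ => ?_
    have hb := (gam_bound tail rev lab hw t (tail e) (lab e)).1
    have hwe := hw e
    have b1 : ∀ a : A t, (if a.1 ∈ A 0 then c * gam tail rev lab w t (tail e) (lab e) else 0) ≤
        ∑ y, (P ^ t) (tail e, a) y * Ψ (y.2.1 - a.1) := by
      intro a
      split_ifs with h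
      · exact low t 0 (zero_add t) (tail e, a) a.1 (lab e) h (by simpa using h0 _ _)
      · exact sum_nonneg fun y _ => mul_nonneg (Matrix.pow_apply_nonneg hP0 _ _ _) (hΨ _)
    refine le_trans ?_ (sum_le_sum fun a _ => mul_le_mul_of_nonneg_left (b1 a) (by positivity))
    rw [← mul_sum, sum_coe_sort (A t)
      (fun a => if a ∈ A 0 then c * gam tail rev lab w t (tail e) (lab e) else 0), ← sum_filter,
      filter_mem_eq_inter, inter_eq_right.2 (hA2 0 (Nat.zero_le _)), sum_const, nsmul_eq_mul]
    rw [div_mul_eq_mul_div, div_le_div_iff₀ (by norm_num) hn]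
    have : 0 ≤ c * (w e * gam tail rev lab w t (tail e) (lab e)) := by positivity
    nlinarith
  have fin : C * (t * ∑ e, ∑ a : A t, w e / (A t).card * ∑ y, P (tail e, a) y * Ψ (y.2.1 - a.1)) ≤
      C * (t * ∑ e, w e * Ψ (g e)) :=
    mul_le_mul_of_nonneg_left (mul_le_mul_of_nonneg_left up (Nat.cast_nonneg _)) hC
  rw [mul_assoc]
  linarith

end

end Vale.Agent.P125
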