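import Mathlib

namespace Vale.Agent.P125

/-- `X` has Markov type `p`: there is a finite `K` such that for every stationary reversible
Markov chain on a finite set `S` (initial law `π`, transition matrix `P`), every `f : S → X` and
every `t ≥ 1`, `E ‖f(Z_t) - f(Z_0)‖^p ≤ K^p t E ‖f(Z_1) - f(Z_0)‖^p`. -/
def HasMarkovType (X : Type*) [NormedAddCommGroup X] (p : ℝ) : Prop :=
  ∃ K : ℝ, 0 ≤ K ∧
    ∀ (S : Type) [Fintype S] [DecidableEq S] (π : S → ℝ) (P : Matrix S S ℝ),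
      (∀ i, 0 ≤ π i) → ∑ i, π i = 1 → (∀ i j, 0 ≤ P i j) → (∀ i, ∑ j, P i j = 1) →
      (∀ i j, π i * P i j = π j * P j i) →
      ∀ (f : S → X) (t : ℕ), 1 ≤ t →
        ∑ i, ∑ j, π i * (P ^ t) i j * ‖f j - f i‖ ^ p ≤
          K ^ p * (t : ℝ) * ∑ i, ∑ j, π i * P i j * ‖f j - f i‖ ^ p

/-- The modulus of uniform smoothness of a norm `N` on `X`. -/
noncomputable def smoothnessModulus {X : Type*} [AddCommGroup X] [Module ℝ X] (N : X → ℝ)
    (τ : ℝ) : ℝ :=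
  sSup {r : ℝ | ∃ x y : X, N x = 1 ∧ N y = 1 ∧ r = (N (x + τ • y) + N (x - τ • y)) / 2 - 1}

end Vale.Agent.P125
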