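import Vale.Agent.P125.Ultra

namespace Vale.Agent.P125

open Finset Filter Topology

open Classical in
theorem exists_law (I : Type) [Fintype I] (P : I → ℕ → ℕ) (M : ℕ) (hM : ∀ i a, P i a < M)
    (hiso : ∀ i j a b, P i a < P i b ↔ P j a < P j b) {ε : ℝ} (hε : 0 < ε) :
    ∃ (Ω : Type) (_ : Fintype Ω) (lam : Ω → ℝ) (y : Ω → ℕ → ℕ), (∀ ω, 0 < lam ω) ∧
      ∑ ω, lam ω = 1 ∧ (∀ ω i j, i < j → j < M → y ω i < y ω j) ∧
      ∀ i j (Vs : Finset (ℕ → ℕ)), ∑ v ∈ Vs, |(∑ ω, if y ω ∘ P i = v then lam ω else 0) -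
        ∑ ω, if y ω ∘ P j = v then lam ω else 0| ≤ ε := by
  let L := lp (fun _ : ℕ → ℕ => ℝ) 1
  let sg : (ℕ → ℕ) → L := fun v => lp.single 1 v (1 : ℝ)
  have hsg : ∀ v, ‖sg v‖ = 1 := fun v => by
    simp only [sg]; rw [lp.norm_single one_pos]; simp
  let z : (ℕ → ℕ) → (I × I → L) := fun y k => sg (y ∘ P k.1) - sg (y ∘ P k.2)
  let O : Set (ℕ → ℕ) := {y | ∀ i j, i < j → j < M → y i < y j}
  have hnd : ¬ Disjoint (Metric.ball (0 : I × I → L) ε) (convexHull ℝ (z '' O)) := by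
    intro hd
    obtain ⟨f, u, h1, h2⟩ := geometric_hahn_banach_open (convex_ball _ _) Metric.isOpen_ball
      (convex_convexHull ℝ _) hd
    have hu : 0 < u := by simpa using h1 0 (Metric.mem_ball_self hε)
    let φ : I × I → (ℕ → ℕ) → ℝ := fun k v => f (Pi.single k (sg v))
    have hφ : ∀ k v, φ k v ∈ Set.Icc (-‖f‖) ‖f‖ := fun k v => by
      have := f.le_opNorm (Pi.single k (sg v))
      rw [Pi.norm_single, hsg, mul_one, Real.norm_eq_abs] at this
      exact abs_le.1 this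
    have hz : ∀ y, f (z y) = ∑ k, (φ k (y ∘ P k.1) - φ k (y ∘ P k.2)) := by
      intro y
      conv_lhs => rw [← univ_sum_single (z y)]
      rw [map_sum]
      refine sum_congr rfl fun k _ => ?_
      simp only [z, φ, Pi.single_sub, map_sub]
    have hlim : ∀ k : I × I, Tendsto (fun y => φ k (y ∘ P k.1) - φ k (y ∘ P k.2)) VV (𝓝 0) := by
      intro k
      obtain ⟨l, hl⟩ := exists_ulim (VV.map fun y => y ∘ P k.1) (φ k) _ _ (hφ k)
      have hl2 := hl
      rw [VV_inv (P k.1) (P k.2) (hiso _ _) M (hM _) (hM _)] at hl2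
      rw [Ultrafilter.coe_map, tendsto_map'_iff] at hl hl2
      simpa using hl.sub hl2
    have hsum := tendsto_finsetSum univ fun k _ => hlim k
    simp only [sum_const_zero, ← hz] at hsum
    have : u ≤ 0 := ge_of_tendsto hsum ((VV_mono M).mono fun y hy =>
      h2 _ (subset_convexHull ℝ _ ⟨y, hy, rfl⟩))
    linarith
  obtain ⟨x, hx1, hx2⟩ := Set.not_disjoint_iff.1 hnd
  obtain ⟨ι, _, w, z', hw0, hw1, hz', hx⟩ := mem_convexHull_iff_exists_fintype.1 hx2
  choose y hy hyz using hz'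
  have hsub : ∀ F : ι → ℝ, (∀ i, w i = 0 → F i = 0) →
      ∑ i : {i // w i ≠ 0}, F i = ∑ i, F i := by
    intro F hF
    rw [← sum_subtype (univ.filter fun i => w i ≠ 0) (by simp) F]
    exact sum_filter_of_ne fun i _ h h' => h (hF i h')
  refine ⟨{i // w i ≠ 0}, inferInstance, fun i => w i, fun i => y i,
    fun i => lt_of_le_of_ne (hw0 _) i.2.symm, by rw [hsub w fun _ h => h, hw1],
    fun ω => hy ω, fun i j Vs => ?_⟩
  have h1 : ‖x (i, j)‖ ≤ ε := (norm_le_pi_norm x _).trans (mem_ball_zero_iff.1 hx1).le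
  have h2 := lp.sum_rpow_le_norm_rpow (p := 1) (by simp) (x (i, j)) Vs
  simp only [ENNReal.toReal_one, Real.rpow_one] at h2
  refine le_trans (le_of_eq (sum_congr rfl fun v _ => ?_)) (h2.trans h1)
  rw [hsub (fun ω => if y ω ∘ P i = v then w ω else 0) fun _ h => by simp [h],
    hsub (fun ω => if y ω ∘ P j = v then w ω else 0) fun _ h => by simp [h], Real.norm_eq_abs,
    ← hx, ← sum_sub_distrib]
  congr 1
  simp only [Finset.sum_apply, ← hyz, z, Pi.smul_apply]
  rw [lp.coeFn_sum, Finset.sum_apply]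
  refine sum_congr rfl fun ω _ => ?_
  rw [lp.coeFn_smul, Pi.smul_apply, lp.coeFn_sub, Pi.sub_apply]
  simp only [sg, lp.single_apply, Pi.single_apply, smul_eq_mul, mul_sub, mul_ite, mul_one,
    mul_zero, eq_comm]

end Vale.Agent.P125
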