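import Mathlib

namespace Vale.Agent.P125

open Filter Topology

/-- the base ultrafilter -/
noncomputable def UU : Ultrafilter ℕ := hyperfilter ℕ

theorem UU_ge (n : ℕ) : ∀ᶠ i in (UU : Filter ℕ), n ≤ i :=
  Nat.hyperfilter_le_atTop (eventually_ge_atTop n)

theorem umem_bind {α β : Type*} (f : Ultrafilter α) (m : α → Ultrafilter β) (s : Set β) :
    s ∈ f.bind m ↔ {a | s ∈ m a} ∈ f := Iff.rfl

def consN (i : ℕ) (y : ℕ → ℕ) : ℕ → ℕ
  | 0 => i
  | j + 1 => y j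

/-- iterated ultrafilters -/
noncomputable def WW : ℕ → Ultrafilter (ℕ → ℕ)
  | 0 => pure fun _ => 0
  | M + 1 => UU.bind fun i => (WW M).map (consN i)

theorem mem_WW_succ (M : ℕ) (s : Set (ℕ → ℕ)) :
    s ∈ WW (M + 1) ↔ {i | {y | consN i y ∈ s} ∈ WW M} ∈ UU := Iff.rfl

theorem WW_gt (M j n : ℕ) (h : j < M) : {y : ℕ → ℕ | n < y j} ∈ WW M := by
  induction M generalizing j with
  | zero => omega
  | succ M ih =>
    rw [mem_WW_succ]
    cases j with
    | zero =>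
      filter_upwards [UU_ge (n + 1)] with i hi
      exact univ_mem' fun y => hi
    | succ j => exact univ_mem' fun i => ih j (by omega)

theorem WW_lt (M i j : ℕ) (hij : i < j) (h : j < M) : {y : ℕ → ℕ | y i < y j} ∈ WW M := by
  induction M generalizing i j with
  | zero => omega
  | succ M ih =>
    rw [mem_WW_succ]
    obtain ⟨j, rfl⟩ : ∃ k, j = k + 1 := ⟨j - 1, by omega⟩
    cases i with
    | zero => exact univ_mem' fun i => WW_gt M j i (by omega)
    | succ i => exact univ_mem' fun _ => ih i j (by omega) (by omega)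

theorem umem_const {α : Type*} (f : Ultrafilter α) (P : Prop) : {_a : α | P} ∈ f ↔ P := by
  by_cases h : P
  · simp only [h, Set.ofPred_true, iff_true]; exact univ_mem
  · simp only [h, Set.ofPred_false, iff_false]; exact f.empty_notMem

theorem WW_shift {T : Type} (M : ℕ) (p : T → ℕ) (hp : ∀ a, p a ≠ 0) (s : Set (T → ℕ)) :
    {y : ℕ → ℕ | y ∘ p ∈ s} ∈ WW (M + 1) ↔ {y : ℕ → ℕ | y ∘ (fun a => p a - 1) ∈ s} ∈ WW M := by
  rw [mem_WW_succ]
  have : ∀ i y, consN i y ∘ p = y ∘ fun a => p a - 1 := by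
    intro i y
    funext a
    obtain ⟨k, hk⟩ : ∃ k, p a = k + 1 := ⟨p a - 1, by have := hp a; omega⟩
    simp [hk, consN]
  simp only [Set.mem_ofPred_eq, this]
  exact umem_const _ _

theorem WW_inv (n : ℕ) : ∀ (M M' : ℕ), M + M' = n → ∀ (T : Type) (p q : T → ℕ),
    (∀ a b, p a < p b ↔ q a < q b) → (∀ a, p a < M) → (∀ a, q a < M') → ∀ s : Set (T → ℕ),
    ({y : ℕ → ℕ | y ∘ p ∈ s} ∈ WW M ↔ {y : ℕ → ℕ | y ∘ q ∈ s} ∈ WW M') := by
  classical
  induction n using Nat.strong_induction_on with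
  | _ n ih =>
  intro M M' hn T p q hpq hp hq s
  rcases isEmpty_or_nonempty T with hT | hT
  · have e : ∀ (r : T → ℕ) (y : ℕ → ℕ), y ∘ r = fun _ => 0 := fun r y => Subsingleton.elim _ _
    simp only [e, umem_const]
  obtain ⟨a0⟩ := hT
  obtain ⟨M, rfl⟩ : ∃ k, M = k + 1 := ⟨M - 1, by have := hp a0; omega⟩
  obtain ⟨M', rfl⟩ : ∃ k, M' = k + 1 := ⟨M' - 1, by have := hq a0; omega⟩
  by_cases h1 : ∀ a, p a ≠ 0
  · rw [WW_shift M p h1]
    refine ih (M + (M' + 1)) (by omega) M (M' + 1) rfl T _ q (fun a b => ?_)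
      (fun a => by have := hp a; have := h1 a; omega) hq s
    rw [← hpq]; have := h1 a; have := h1 b; omega
  by_cases h2 : ∀ a, q a ≠ 0
  · rw [WW_shift M' q h2]
    refine ih (M + 1 + M') (by omega) (M + 1) M' rfl T p _ (fun a b => ?_) hp
      (fun a => by have := hq a; have := h2 a; omega) s
    rw [hpq]; have := h2 a; have := h2 b; omega
  push Not at h1 h2
  obtain ⟨a1, h1⟩ := h1
  obtain ⟨a2, h2⟩ := h2
  have hz : ∀ a, p a = 0 ↔ q a = 0 := by
    intro a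
    have b1 := hpq a1 a
    have b2 := hpq a2 a
    have b3 := hpq a1 a2
    have b4 := hpq a2 a1
    omega
  let Ψ : ℕ → ({a // p a ≠ 0} → ℕ) → T → ℕ := fun i z a => if h : p a = 0 then i else z ⟨a, h⟩
  have e1 : ∀ i y, consN i y ∘ p = Ψ i (y ∘ fun a : {a // p a ≠ 0} => p a.1 - 1) := by
    intro i y
    funext a
    by_cases h : p a = 0
    · simp [Ψ, h, consN]
    · obtain ⟨k, hk⟩ : ∃ k, p a = k + 1 := ⟨p a - 1, by omega⟩
      simp [Ψ, hk, consN]
  have e2 : ∀ i y, consN i y ∘ q = Ψ i (y ∘ fun a : {a // p a ≠ 0} => q a.1 - 1) := by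
    intro i y
    funext a
    by_cases h : p a = 0
    · simp [Ψ, h, (hz a).1 h, consN]
    · obtain ⟨k, hk⟩ : ∃ k, q a = k + 1 := ⟨q a - 1, by have := hz a; omega⟩
      simp [Ψ, h, hk, consN]
  rw [mem_WW_succ, mem_WW_succ]
  simp only [Set.mem_ofPred_eq, e1, e2]
  have key : ∀ i, {y : ℕ → ℕ | Ψ i (y ∘ fun a : {a // p a ≠ 0} => p a.1 - 1) ∈ s} ∈ WW M ↔
      {y : ℕ → ℕ | Ψ i (y ∘ fun a : {a // p a ≠ 0} => q a.1 - 1) ∈ s} ∈ WW M' := by
    intro i
    refine ih (M + M') (by omega) M M' rfl _ _ _ (fun a b => ?_) (fun a => ?_) (fun a => ?_)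
      {z | Ψ i z ∈ s}
    · have := hpq a.1 b.1
      have := a.2; have := b.2; have := hz a.1; have := hz b.1
      omega
    · have := hp a.1; have := a.2; omega
    · have := hq a.1; have := a.2; have := hz a.1; omega
  simp only [key]

/-- the spreading invariant ultrafilter on sequences -/
noncomputable def VV : Ultrafilter (ℕ → ℕ) := UU.bind WW

theorem VV_lt {i j : ℕ} (hij : i < j) : ∀ᶠ y in (VV : Filter (ℕ → ℕ)), y i < y j := by
  change {M | {y : ℕ → ℕ | y i < y j} ∈ WW M} ∈ UU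
  filter_upwards [UU_ge (j + 1)] with M hM
  exact WW_lt M i j hij hM

theorem VV_mono (n : ℕ) : ∀ᶠ y in (VV : Filter (ℕ → ℕ)), ∀ i j, i < j → j < n → y i < y j := by
  have : ∀ᶠ y in (VV : Filter (ℕ → ℕ)), ∀ j ∈ Finset.range n, ∀ i ∈ Finset.range j, y i < y j := by
    rw [eventually_all_finset]
    intro j _
    rw [eventually_all_finset]
    intro i hi
    exact VV_lt (Finset.mem_range.1 hi)
  filter_upwards [this] with y hy i j hij hj
  exact hy j (Finset.mem_range.2 hj) i (Finset.mem_range.2 hij)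

theorem VV_eq {T : Type} (p : T → ℕ) (M : ℕ) (hp : ∀ a, p a < M) (s : Set (T → ℕ)) :
    {y : ℕ → ℕ | y ∘ p ∈ s} ∈ VV ↔ {y : ℕ → ℕ | y ∘ p ∈ s} ∈ WW M := by
  change {M' | {y : ℕ → ℕ | y ∘ p ∈ s} ∈ WW M'} ∈ UU ↔ _
  have key : ∀ M' ≥ M, ({y : ℕ → ℕ | y ∘ p ∈ s} ∈ WW M' ↔ {y : ℕ → ℕ | y ∘ p ∈ s} ∈ WW M) :=
    fun M' h => WW_inv _ M' M rfl T p p (fun _ _ => Iff.rfl) (fun a => (hp a).trans_le h) hp s
  constructor
  · intro h
    obtain ⟨M', h1, h2⟩ := (Eventually.and (UU_ge M) h).exists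
    exact (key M' h1).1 h2
  · intro h
    filter_upwards [UU_ge M] with M' h1
    exact (key M' h1).2 h

theorem VV_inv {T : Type} (p q : T → ℕ) (hpq : ∀ a b, p a < p b ↔ q a < q b) (M : ℕ)
    (hp : ∀ a, p a < M) (hq : ∀ a, q a < M) :
    VV.map (fun y => y ∘ p) = VV.map (fun y => y ∘ q) := by
  ext s
  change {y : ℕ → ℕ | y ∘ p ∈ s} ∈ VV ↔ {y : ℕ → ℕ | y ∘ q ∈ s} ∈ VV
  rw [VV_eq p M hp, VV_eq q M hq]
  exact WW_inv _ M M rfl T p q hpq hp hq s

theorem exists_ulim {α : Type*} (f : Ultrafilter α) (u : α → ℝ) (a b : ℝ)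
    (h : ∀ x, u x ∈ Set.Icc a b) : ∃ l, Tendsto u f (𝓝 l) := by
  obtain ⟨l, -, hl⟩ := isCompact_Icc.ultrafilter_le_nhds (f.map u)
    (le_principal_iff.2 (univ_mem' h : {x | u x ∈ Set.Icc a b} ∈ (f : Filter α)))
  exact ⟨l, hl⟩

end Vale.Agent.P125
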