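import Vale.Agent.P125.Renorm
import Vale.Agent.P125.Ultra

namespace Vale.Agent.P125

open Finset Filter Topology Finsupp

/-- finite stage properties of a cost function on finitely supported sequences -/
structure Pre (p C θ : ℝ) (N : ℕ) (Φ : (ℕ →₀ ℝ) → ℝ) : Prop where
  mi : MI Φ C
  nonneg : ∀ a, 0 ≤ Φ a
  upper : ∀ (T : Type) (s : Finset T) (z : T → ℕ) (c : T → ℝ),
    Φ (∑ τ ∈ s, single (z τ) (c τ)) ≤ (∑ τ ∈ s, |c τ|) ^ p
  neg : ∀ a, Φ (-a) = Φ a
  sub : ∀ a b, Φ (a - b) ≤ 2 ^ p * (Φ a + Φ b)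
  mono : ∀ a b : ℕ →₀ ℝ, (∀ i j, a i ≠ 0 → b j ≠ 0 → i < j ∧ j < N) → Φ a ≤ Φ (a + b)
  lower : ∀ (J : Type) [Fintype J] (z : J → ℕ), (∀ r, z r < N) →
    (θ * Fintype.card J) ^ p ≤ Φ (∑ r, single (z r) 1)

theorem MI.comp {Y Z : Type*} [Sub Y] [Sub Z] {Ψ : Z → ℝ} {C : ℝ} (h : MI Ψ C) (L : Y → Z)
    (hL : ∀ a b, L (a - b) = L a - L b) : MI (fun a => Ψ (L a)) C := by
  intro S _ _ π P h1 h2 h3 h4 h5 f t ht
  simpa only [hL] using h S π P h1 h2 h3 h4 h5 (fun s => L (f s)) t ht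

theorem mapDomain_neg' (φ : ℕ → ℕ) (a : ℕ →₀ ℝ) : mapDomain φ (-a) = -mapDomain φ a :=
  map_neg (mapDomain.addMonoidHom φ) a

theorem mapDomain_ne_zero {φ : ℕ → ℕ} {a : ℕ →₀ ℝ} {l : ℕ} (h : mapDomain φ a l ≠ 0) :
    ∃ i, a i ≠ 0 ∧ φ i = l := by
  have := mapDomain_support (f := φ) (mem_support_iff.2 h)
  obtain ⟨i, hi, rfl⟩ := mem_image.1 this
  exact ⟨i, mem_support_iff.1 hi, rfl⟩

theorem Pre.comp {p C θ : ℝ} {N N' : ℕ} {Φ : (ℕ →₀ ℝ) → ℝ} (h : Pre p C θ N Φ) (φ : ℕ → ℕ)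
    (h1 : ∀ i j, i < j → j < N' → φ i < φ j) (h2 : ∀ i < N', φ i < N) :
    Pre p C θ N' (fun a => Φ (mapDomain φ a)) where
  mi := h.mi.comp _ fun _ _ => mapDomain_sub
  nonneg a := h.nonneg _
  upper T s z c := by
    simp only [mapDomain_finsetSum, mapDomain_single]
    exact h.upper T s (fun τ => φ (z τ)) c
  neg a := by rw [mapDomain_neg', h.neg]
  sub a b := by rw [mapDomain_sub]; exact h.sub _ _
  mono a b hab := by
    rw [mapDomain_add]
    refine h.mono _ _ fun i j hi hj => ?_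
    obtain ⟨i', hi', rfl⟩ := mapDomain_ne_zero hi
    obtain ⟨j', hj', rfl⟩ := mapDomain_ne_zero hj
    exact ⟨h1 _ _ (hab i' j' hi' hj').1 (hab i' j' hi' hj').2, h2 _ (hab i' j' hi' hj').2⟩
  lower J _ z hz := by
    simp only [mapDomain_finsetSum, mapDomain_single]
    exact h.lower J (fun r => φ (z r)) fun r => h2 _ (hz r)

variable {X : Type*} [NormedAddCommGroup X] [NormedSpace ℝ X]

theorem exists_pre {p C η : ℝ} (hp : 1 ≤ p) (hη : 0 < η) (hX : MI (fun x : X => ‖x‖ ^ p) C)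
    (N m : ℕ) (hm : 2 * N ≤ η * m) (hth : ¬ Tr.Thin X η m) :
    ∃ Φ, Pre p C (η / 2) N Φ := by
  simp only [Tr.Thin, not_forall, not_le] at hth
  obtain ⟨δ, hδ, T, hT, hd, hlt⟩ := hth
  obtain ⟨f, a, -, ha, e, hsub⟩ := Tr.ev_subgrad hδ.le T hT m hd 0
  rw [Tr.val_id_eq, e, map_zero, zero_add] at hlt
  let G := (range m).filter fun i => η * δ / 2 ≤ a i
  have hG : N ≤ G.card := by
    have h1 : ∑ i ∈ range m, a i ≤ ∑ i ∈ range m, (η * δ / 2 + if η * δ / 2 ≤ a i then δ else 0) := by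
      refine sum_le_sum fun i _ => ?_
      have := ha i
      have : 0 < η * δ := by positivity
      split_ifs with h
      · linarith
      · linarith
    rw [sum_add_distrib, ← sum_filter] at h1
    simp only [sum_const, card_range, nsmul_eq_mul] at h1
    have h2 : (N : ℝ) * δ < G.card * δ := by nlinarith
    exact_mod_cast (lt_of_mul_lt_mul_right h2 hδ.le).le
  let σ : ℕ → ℕ := fun i => if h : i < N then G.orderEmbOfCardLe hG ⟨i, h⟩ else 0
  have σ1 : ∀ i j, i < j → j < N → σ i < σ j := by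
    intro i j hij hj
    simp only [σ, dif_pos hj, dif_pos (hij.trans hj)]
    exact (G.orderEmbOfCardLe hG).strictMono hij
  have σ2 : ∀ i < N, σ i < m ∧ η * δ / 2 ≤ a (σ i) := by
    intro i hi
    have := G.orderEmbOfCardLe_mem hG ⟨i, hi⟩
    simp only [σ, dif_pos hi]
    simpa [G] using this
  let L : (ℕ →₀ ℝ) → ℕ → ℝ := fun b => δ⁻¹ • ⇑(mapDomain σ b)
  have Lsub : ∀ a b, L (a - b) = L a - L b := fun a b => by
    simp only [L, mapDomain_sub, Finsupp.coe_sub, smul_sub]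
  refine ⟨fun b => T.ev (fun z => ‖z‖ ^ p) 0 (L b), ?_, fun b => ?_, ?_, fun b => ?_,
    fun b c => ?_, fun b c hbc => ?_, ?_⟩
  · exact (Tr.ev_markov hX T).comp (fun b => ((0 : X), L b)) fun a b => by simp [Lsub]
  · exact Tr.ev_nonneg (fun x => by positivity) _ _ _
  · intro I s z c
    refine (Tr.ev_le (by linarith) hδ.le T hT m hd 0 _).trans ?_
    refine Real.rpow_le_rpow (by positivity) ?_ (by linarith)
    simp only [L, mapDomain_finsetSum, mapDomain_single, norm_zero, zero_add, Pi.smul_apply,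
      smul_eq_mul, abs_mul, abs_of_pos (inv_pos.2 hδ), ← Finset.mul_sum, finsetSum_apply]
    rw [← mul_assoc, mul_inv_cancel₀ hδ.ne', one_mul]
    refine (Finset.sum_le_sum fun i _ => abs_sum_le_sum_abs _ _).trans ?_
    rw [Finset.sum_comm]
    refine sum_le_sum fun τ _ => ?_
    simp only [single_apply, apply_ite abs, abs_zero, Finset.sum_ite_eq]
    split_ifs
    · exact le_rfl
    · exact abs_nonneg _
  · have := Tr.ev_neg (ψ := fun z : X => ‖z‖ ^ p) (fun x => by rw [norm_neg]) T 0 (L b)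
    rw [neg_zero] at this
    rw [← this]
    simp only [L, mapDomain_neg', Finsupp.coe_neg, smul_neg]
  · have := Tr.ev_sub (ψ := fun z : X => ‖z‖ ^ p) (Tr.norm_rpow_sub (by linarith)) T 0 0
      (L b) (L c)
    rw [sub_zero] at this
    simpa only [Lsub] using this
  · have := Tr.ev_mono (ψ := fun z : X => ‖z‖ ^ p) (Tr.norm_rpow_mid hp) T 0 (L b) (L c)
      (fun i j hi hj => by
        simp only [L, Pi.smul_apply, smul_eq_mul, ne_eq, mul_eq_zero, not_or] at hi hj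
        obtain ⟨i', hi', rfl⟩ := mapDomain_ne_zero hi.2
        obtain ⟨j', hj', rfl⟩ := mapDomain_ne_zero hj.2
        exact σ1 _ _ (hbc i' j' hi' hj').1 (hbc i' j' hi' hj').2)
    simpa only [L, mapDomain_add, Finsupp.coe_add, smul_add] using this
  · intro J _ z hz
    refine le_trans ?_ (Tr.ev_jensen hp T 0 _)
    refine Real.rpow_le_rpow (by positivity) (le_trans ?_ (hsub 0 _)) (by linarith)
    simp only [L, mapDomain_finsetSum, mapDomain_single, map_zero, zero_add, Pi.smul_apply,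
      smul_eq_mul, finsetSum_apply, mul_assoc, ← Finset.mul_sum, Finset.sum_mul]
    rw [Finset.sum_comm, ← div_eq_inv_mul, le_div_iff₀ hδ]
    have : ∀ r : J, η * δ / 2 ≤ ∑ i ∈ range m, (single (σ (z r)) (1 : ℝ)) i * a i := by
      intro r
      have := σ2 _ (hz r)
      simp only [single_apply, ite_mul, one_mul, zero_mul, Finset.sum_ite_eq, mem_range, this.1, if_true]
      exact this.2
    refine le_trans (le_of_eq ?_) (sum_le_sum fun r _ => this r)
    simp only [sum_const, card_univ, nsmul_eq_mul]; ring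

/-- limit properties -/
structure Good (p C θ : ℝ) (Ψ : (ℕ →₀ ℝ) → ℝ) : Prop where
  pre : ∀ N, Pre p C θ N Ψ
  inv : ∀ (T : Type) [Fintype T] (z w : T → ℕ) (c : T → ℝ), (∀ a b, z a < z b ↔ w a < w b) →
    Ψ (∑ τ, single (z τ) (c τ)) = Ψ (∑ τ, single (w τ) (c τ))

theorem exists_good {p C θ : ℝ} (h : ∀ N, ∃ Φ, Pre p C θ N Φ) : ∃ Ψ, Good p C θ Ψ := by
  choose Φ hΦ using h
  let G : Ultrafilter (ℕ × (ℕ → ℕ)) := VV.bind fun y => UU.map fun N => (N, y)
  let F : (ℕ →₀ ℝ) → ℕ × (ℕ → ℕ) → ℝ := fun a u => Φ u.1 (mapDomain u.2 a)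
  have triv : ∀ u : ℕ × (ℕ → ℕ), Pre p C θ 0 (fun a => F a u) := fun u =>
    (hΦ u.1).comp u.2 (fun _ _ _ h => absurd h (Nat.not_lt_zero _))
      (fun _ h => absurd h (Nat.not_lt_zero _))
  have ev : ∀ n, ∀ᶠ u in (G : Filter (ℕ × (ℕ → ℕ))), Pre p C θ n (fun a => F a u) := by
    intro n
    change {y | {N | Pre p C θ n (fun a => F a (N, y))} ∈ UU} ∈ VV
    filter_upwards [VV_mono n] with y hy
    filter_upwards [UU_ge ((range n).sup y + 1)] with N hN
    refine (hΦ N).comp y hy fun i hi => ?_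
    have : y i ≤ (range n).sup y := le_sup (f := y) (mem_range.2 hi)
    omega
  have hl : ∀ a, ∃ l, Tendsto (F a) G (𝓝 l) := fun a =>
    exists_ulim G (F a) 0 ((∑ i ∈ a.support, |a i|) ^ p) fun u =>
      ⟨(triv u).nonneg a, by
        have := (triv u).upper ℕ a.support id a
        have e : ∑ τ ∈ a.support, single (id τ) (a τ) = a := a.sum_single
        rwa [e] at this⟩
  choose Ψ hΨ using hl
  refine ⟨Ψ, fun n => ⟨?_, fun a => ?_, fun T s z c => ?_, fun a => ?_, fun a b => ?_,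
    fun a b hab => ?_, fun J _ z hz => ?_⟩, fun T _ z w c hzw => ?_⟩
  · intro S _ _ π P h1 h2 h3 h4 h5 f t ht
    refine le_of_tendsto_of_tendsto' (b := (G : Filter (ℕ × (ℕ → ℕ))))
      (tendsto_finsetSum _ fun i _ => tendsto_finsetSum _ fun j _ => (hΨ _).const_mul _)
      ((tendsto_finsetSum _ fun i _ => tendsto_finsetSum _ fun j _ =>
        (hΨ _).const_mul _).const_mul _) fun u => ?_
    exact (triv u).mi S π P h1 h2 h3 h4 h5 f t ht
  · exact ge_of_tendsto' (hΨ a) fun u => (triv u).nonneg a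
  · exact le_of_tendsto' (hΨ _) fun u => (triv u).upper T s z c
  · refine tendsto_nhds_unique (hΨ _) ((hΨ a).congr fun u => ((triv u).neg a).symm)
  · exact le_of_tendsto_of_tendsto' (hΨ _) (((hΨ a).add (hΨ b)).const_mul _)
      fun u => (triv u).sub a b
  · exact le_of_tendsto_of_tendsto (hΨ _) (hΨ _) ((ev n).mono fun u hu => hu.mono a b hab)
  · exact ge_of_tendsto (hΨ _) ((ev n).mono fun u hu => hu.lower J z hz)
  · let H : ℕ × (T → ℕ) → ℝ := fun u => Φ u.1 (∑ τ, single (u.2 τ) (c τ))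
    have key : ∀ z : T → ℕ, Tendsto H (G.map fun u => (u.1, u.2 ∘ z))
        (𝓝 (Ψ (∑ τ, single (z τ) (c τ)))) := by
      intro z
      rw [Ultrafilter.coe_map, tendsto_map'_iff]
      refine (hΨ (∑ τ, single (z τ) (c τ))).congr fun u => ?_
      simp only [F, H, mapDomain_finsetSum, mapDomain_single, Function.comp_apply]
    have e : (G.map fun u => (u.1, u.2 ∘ z)) = G.map fun u => (u.1, u.2 ∘ w) := by
      have hinv := VV_inv z w hzw (univ.sup z + univ.sup w + 1)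
        (fun a => by have : z a ≤ univ.sup z := le_sup (f := z) (mem_univ a); omega)
        (fun a => by have : w a ≤ univ.sup w := le_sup (f := w) (mem_univ a); omega)
      ext s
      change {v : T → ℕ | {N | (N, v) ∈ s} ∈ UU} ∈ VV.map (fun y => y ∘ z) ↔
        {v : T → ℕ | {N | (N, v) ∈ s} ∈ UU} ∈ VV.map (fun y => y ∘ w)
      rw [hinv]
    have kz := key z
    rw [e] at kz
    exact tendsto_nhds_unique kz (key w)

theorem good_of_not_thin {p C : ℝ} (hp : 1 ≤ p) (hX : MI (fun x : X => ‖x‖ ^ p) C)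
    (hA : ¬ ∀ η : ℝ, 0 < η → ∃ M : ℕ, ∀ m ≥ M, Tr.Thin X η m) :
    ∃ θ, 0 < θ ∧ ∃ Ψ, Good p C θ Ψ := by
  push Not at hA
  obtain ⟨η, hη, h⟩ := hA
  refine ⟨η / 2, by positivity, exists_good fun N => ?_⟩
  obtain ⟨m, hm, hth⟩ := h ⌈2 * N / η⌉₊
  refine exists_pre hp hη hX N m ?_ hth
  have := Nat.ceil_le.1 hm
  rw [div_le_iff₀ hη] at this
  linarith

end Vale.Agent.P125
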