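import Vale.Agent.P125.Nest
import Vale.Agent.P125.Chain
import Vale.Agent.P125.Law

namespace Vale.Agent.P125

open Finset Filter Topology
open Finsupp (single)

theorem kappa_bound {E V Lb : Type} [Fintype E] [Fintype V] [Fintype Lb] [DecidableEq V]
    [DecidableEq Lb] (tail : E → V) (lab : E → Lb) {w : E → ℝ} (hw : ∀ e, 0 < w e)
    (hw1 : ∑ e, w e = 1) (hD : 0 < Fintype.card Lb) {ε : ℝ}
    (h : ∀ α α', ∑ v, |pl tail lab w v α - pl tail lab w v α'| ≤ ε / Fintype.card Lb) :
    ∑ e, w e * (pl tail lab w (tail e) (lab e) / pv tail w (tail e)) ≤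
      1 / Fintype.card Lb + ε := by
  have hD' : (0 : ℝ) < Fintype.card Lb := by exact_mod_cast hD
  let H : V → ℝ := fun v => ∑ α, ∑ α', |pl tail lab w v α - pl tail lab w v α'|
  have H0 : ∀ v, 0 ≤ H v := fun v => by positivity
  have a1 : ∀ v, ∑ α, pl tail lab w v α = pv tail w v := by
    intro v
    simp only [pl, pv]
    rw [sum_comm]
    refine sum_congr rfl fun e _ => ?_
    by_cases h : tail e = v <;> simp [h]
  have a2 : ∀ v α, Fintype.card Lb * pl tail lab w v α ≤ pv tail w v + H v := by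
    intro v α
    have b1 : ∑ α', |pl tail lab w v α - pl tail lab w v α'| ≤ H v :=
      single_le_sum (f := fun α => ∑ α', |pl tail lab w v α - pl tail lab w v α'|)
        (fun _ _ => by positivity) (mem_univ α)
    have b2 : ∑ α', (pl tail lab w v α - pl tail lab w v α') ≤
        ∑ α', |pl tail lab w v α - pl tail lab w v α'| := sum_le_sum fun _ _ => le_abs_self _
    rw [sum_sub_distrib, a1, sum_const, card_univ, nsmul_eq_mul] at b2
    linarith
  have a3 : ∑ e, w e / pv tail w (tail e) * H (tail e) ≤ ∑ v, H v := by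
    rw [← sum_fiberwise univ tail]
    refine sum_le_sum fun v _ => ?_
    rw [sum_congr rfl (g := fun e => w e / pv tail w v * H v) fun e he => by
      rw [(mem_filter.1 he).2], ← sum_mul, ← sum_div, sum_filter]
    exact mul_le_of_le_one_left (H0 v) (div_le_one_of_le₀ le_rfl (pv_nonneg tail hw v))
  have a4 : ∑ v, H v ≤ Fintype.card Lb * ε := by
    simp only [H]
    rw [sum_comm]
    refine le_trans (sum_le_sum (g := fun _ => ε) fun α _ => ?_) (by simp)
    rw [sum_comm]
    refine le_trans (sum_le_sum fun α' _ => h α α') (le_of_eq ?_)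
    rw [sum_const, card_univ, nsmul_eq_mul]; field_simp
  have a5 : ∀ e, w e * (pl tail lab w (tail e) (lab e) / pv tail w (tail e)) ≤
      (w e + w e / pv tail w (tail e) * H (tail e)) / Fintype.card Lb := by
    intro e
    have hp := pv_pos tail hw e
    have := mul_le_mul_of_nonneg_left (a2 (tail e) (lab e)) (div_pos (hw e) hp).le
    rw [le_div_iff₀ hD']
    rw [mul_add, div_mul_cancel₀ _ hp.ne'] at this
    refine le_trans (le_of_eq ?_) this
    ring
  refine (sum_le_sum fun e _ => a5 e).trans ?_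
  rw [← sum_div, sum_add_distrib, hw1, div_le_iff₀ hD', add_mul, div_mul_cancel₀ _ hD'.ne']
  linarith

/-- segment index -/
def seg (D m α j : ℕ) : ℕ := (j + (D - α) * (m + 1)) / (D * (m + 1))

theorem BB_seg {D m α : ℕ} (hα : α < D) (k : ℕ) :
    BB D m k α + (D - α) * (m + 1) = (k + 1) * (D * (m + 1)) := by
  obtain ⟨c, rfl⟩ := Nat.exists_eq_add_of_le hα.le
  simp only [BB, Nat.add_sub_cancel_left]; ring

theorem seg_le {D m α k j : ℕ} (hα : α < D) (h : j < BB D m k α) : seg D m α j ≤ k := by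
  have := BB_seg (m := m) hα k
  have hp : 0 < D * (m + 1) := Nat.mul_pos (by omega) (by omega)
  exact Nat.lt_succ_iff.1 ((Nat.div_lt_iff_lt_mul hp).2 (by simp only [Nat.succ_eq_add_one]; omega))

theorem le_seg {D m α k j : ℕ} (hα : α < D) (h : BB D m k α ≤ j) : k + 1 ≤ seg D m α j := by
  have := BB_seg (m := m) hα k
  have hp : 0 < D * (m + 1) := Nat.mul_pos (by omega) (by omega)
  exact (Nat.le_div_iff_mul_le hp).2 (by omega)

/-- position of the marks of a vertex inside an edge -/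
def PP (D m n α : ℕ) (b : Bool) (j : ℕ) : ℕ :=
  (2 * seg D m α (min j n) + b.toNat) * (n + 1) + min j n

theorem PP_lt {D m n α α' j j' : ℕ} {b b' : Bool} (hj : j ≤ n) (hj' : j' ≤ n)
    (h : 2 * seg D m α j + b.toNat < 2 * seg D m α' j' + b'.toNat) :
    PP D m n α b j < PP D m n α' b' j' := by
  simp only [PP, min_eq_left hj, min_eq_left hj']
  have := Nat.mul_le_mul_right (n + 1) (Nat.succ_le_of_lt h)
  rw [Nat.succ_mul] at this
  omega

theorem PP_mono {D m n α j j' : ℕ} {b : Bool} (h : min j n < min j' n) :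
    PP D m n α b j < PP D m n α b j' := by
  have h1 : seg D m α (min j n) ≤ seg D m α (min j' n) := Nat.div_le_div_right (by omega)
  have := Nat.mul_le_mul_right (n + 1)
    (show 2 * seg D m α (min j n) + b.toNat ≤ 2 * seg D m α (min j' n) + b.toNat by omega)
  simp only [PP]; omega

theorem PP_iff {D m n α j j' : ℕ} {b : Bool} :
    PP D m n α b j < PP D m n α b j' ↔ min j n < min j' n := by
  refine ⟨fun h => ?_, PP_mono⟩
  rcases lt_trichotomy (min j n) (min j' n) with h' | h' | h'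
  · exact h'
  · simp only [PP, h'] at h; omega
  · exact absurd h (PP_mono h').not_gt

theorem PP_bound {D m n α j : ℕ} {b : Bool} :
    PP D m n α b j < (2 * (n + D * (m + 1)) + 2) * (n + 1) := by
  have h1 : seg D m α (min j n) ≤ n + D * (m + 1) :=
    (Nat.div_le_self _ _).trans (add_le_add (min_le_right _ _)
      (Nat.mul_le_mul_right _ (Nat.sub_le _ _)))
  have h2 := b.toNat_le
  have := Nat.mul_le_mul_right (n + 1)
    (show 2 * seg D m α (min j n) + b.toNat + 1 ≤ 2 * (n + D * (m + 1)) + 2 by omega)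
  rw [Nat.succ_mul] at this
  have := min_le_right j n
  simp only [PP]; omega

set_option maxHeartbeats 1000000 in
theorem core {p C θ : ℝ} {Ψ : (ℕ →₀ ℝ) → ℝ} (h : Good p C θ Ψ) (hp : 0 < p) (hC : 0 ≤ C)
    {K' t : ℕ} (ht : 1 ≤ t) {J0 : Type} [Fintype J0] (hJ : 0 < Fintype.card J0)
    (pos : ℕ → Bool → J0 → ℕ) (ho : Ord (K' + 2 * t + 1) pos) {σ : ℝ} (hσ0 : 0 ≤ σ)
    (hσ : ∀ x ∈ vals p Ψ K', σ ≤ x) :
    σ * ((t : ℝ) * Fintype.card J0) ^ p / (2 * 2 ^ p) ≤
      4 * (C * t * Ψ (pat (K' + 2 * t + 1) pos)) := by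
  classical
  set K := K' + 2 * t + 1 with hK
  obtain ⟨m, hm⟩ : ∃ m, ∀ k < K, ∀ b r, pos k b r ≤ m :=
    ⟨univ.sup fun τ : Fin K × Bool × J0 => pos τ.1 τ.2.1 τ.2.2, fun k hk b r =>
      le_sup (f := fun τ : Fin K × Bool × J0 => pos τ.1 τ.2.1 τ.2.2)
        (mem_univ (⟨k, hk⟩, b, r))⟩
  obtain ⟨D, hD⟩ : ∃ D, D = 4 * t := ⟨_, rfl⟩
  obtain ⟨n, hn⟩ : ∃ n, n = BB D m (K + 1) 0 := ⟨_, rfl⟩
  have ht' : (0 : ℝ) < t := by exact_mod_cast ht
  have hD' : (D : ℝ) = 4 * t := by rw [hD]; push_cast; ring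
  have hD0 : (0 : ℝ) < D := by rw [hD']; positivity
  obtain ⟨Ω, _, lam, y, hlam, hlam1, hy, hclose⟩ := exists_law (Fin D × Bool)
    (fun i => PP D m n i.1 i.2) _ (fun _ _ => PP_bound) (fun _ _ _ _ => by rw [PP_iff, PP_iff])
    (ε := 1 / (4 * t)) (by positivity)
  let tl : Ω × Fin D × Fin D × Bool → ℕ → ℕ := fun e => y e.1 ∘ PP D m n e.2.1 (!e.2.2.2)
  let rev : Ω × Fin D × Fin D × Bool → Ω × Fin D × Fin D × Bool :=
    fun e => (e.1, e.2.2.1, e.2.1, !e.2.2.2)
  have hrev : Function.Involutive rev := fun e => by simp [rev]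
  let tail : Ω × Fin D × Fin D × Bool → (univ.image tl) :=
    fun e => ⟨tl e, mem_image_of_mem _ (mem_univ _)⟩
  let w : Ω × Fin D × Fin D × Bool → ℝ := fun e => lam e.1 / (2 * D ^ 2)
  let g : Ω × Fin D × Fin D × Bool → ℕ →₀ ℝ := fun e => ∑ k ∈ range K, ∑ r,
    (single (tl e (BB D m k e.2.1 + pos k (!e.2.2.2) r)) 1 -
      single (tl (rev e) (BB D m k e.2.2.1 + pos k e.2.2.2 r)) 1)
  have hw : ∀ e, 0 < w e := fun e => by have := hlam e.1; positivity
  have hw1 : ∑ e, w e = 1 := by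
    rw [Fintype.sum_prod_type, ← hlam1]
    refine sum_congr rfl fun ω _ => ?_
    simp only [w, sum_const, card_univ, Fintype.card_prod, Fintype.card_fin, Fintype.card_bool,
      nsmul_eq_mul]
    push_cast; field_simp
  have hg : ∀ e, g (rev e) = -g e := by
    intro e
    simp only [g, hrev e, ← sum_neg_distrib, neg_sub]
    simp only [rev, Bool.not_not]
  have hmono : ∀ e i j, i < j → j ≤ n → tl e i < tl e j := fun e i j hij hj =>
    hy _ _ _ (PP_mono (by rw [min_eq_left hj, min_eq_left (by omega)]; exact hij)) PP_bound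
  have R1 : ∀ e k j j', j < BB D m (k + 1) e.2.1 → BB D m (k + (!e.2.2.2).toNat) e.2.2.1 ≤ j' →
      j ≤ n → j' ≤ n → tl e j < tl (rev e) j' := by
    rintro ⟨ω, α, β, o⟩ k j j' a b c d
    have a' := seg_le α.2 a
    have b' := le_seg β.2 b
    refine hy _ _ _ (PP_lt c d ?_) PP_bound
    cases o <;> simp [rev] at a' b' ⊢ <;> omega
  have R2 : ∀ e k j j', j' < BB D m (k + (!e.2.2.2).toNat) e.2.2.1 → BB D m k e.2.1 ≤ j →
      j ≤ n → j' ≤ n → tl (rev e) j' < tl e j := by
    rintro ⟨ω, α, β, o⟩ k j j' a b c d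
    have a' := seg_le β.2 a
    have b' := le_seg α.2 b
    refine hy _ _ _ (PP_lt d c ?_) PP_bound
    cases o <;> simp [rev] at a' b' ⊢ <;> omega
  have hnn : ∀ k γ, k ≤ K → γ < D → BB D m k γ + m < n := fun k γ hk hγ =>
    hn ▸ BB_lt hγ (by omega)
  have hΨ1 : ∀ e, e.2.2.2 = true → Ψ (g e) = Ψ (pat K pos) := by
    rintro ⟨ω, α, β, o⟩ (rfl : o = true)
    let e : Ω × Fin D × Fin D × Bool := (ω, α, β, true)
    have r1 := R1 e
    have r2 := R2 e
    simp only [e, Bool.not_true, Bool.toNat_false, add_zero] at r1 r2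
    let q : ℕ → Bool → J0 → ℕ := fun k b r =>
      if b then tl (rev e) (BB D m k β + pos k true r) else tl e (BB D m k α + pos k false r)
    have eq : g e = pat K q := by simp [g, pat, q, e]
    change Ψ (g e) = _
    rw [eq]
    refine h.pat_inv ⟨fun k hk r r' => ?_, fun k k' b b' r r' hk hk' => ?_⟩ ho fun k hk b r r' => ?_
    · have := hm k hk false r; have := hm k hk true r'
      have := hnn k α hk.le α.2; have := hnn k β hk.le β.2
      have : BB D m k α + m < BB D m (k + 1) α := BB_lt α.2 (by omega)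
      simp only [q, Bool.false_eq_true, if_false, if_true]
      exact r1 k _ _ (by omega) (by omega) (by omega) (by omega)
    · have := hm k (by omega) false r; have := hm k (by omega) true r
      have := hm k' hk' false r'; have := hm k' hk' true r'
      have := hnn k' α hk'.le α.2; have := hnn k' β hk'.le β.2
      have : BB D m k α + m < BB D m k' α := BB_lt α.2 hk
      have : BB D m k β + m < BB D m k' β := BB_lt β.2 hk
      have : BB D m k' α + m < BB D m (k' + 1) α := BB_lt α.2 (by omega)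
      cases b <;> cases b' <;> simp only [q, Bool.false_eq_true, if_false, if_true]
      · exact hmono _ _ _ (by omega) (by omega)
      · exact r1 k' _ _ (by omega) (by omega) (by omega) (by omega)
      · exact r2 k' _ _ (by omega) (by omega) (by omega) (by omega)
      · exact hmono _ _ _ (by omega) (by omega)
    · have key : ∀ e c a b, c + a ≤ n → c + b ≤ n → (tl e (c + a) < tl e (c + b) ↔ a < b) := by
        intro e c a b ha hb
        refine ⟨fun hh => ?_, fun hh => hmono _ _ _ (by omega) hb⟩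
        rcases lt_trichotomy a b with h' | rfl | h'
        · exact h'
        · exact absurd hh (lt_irrefl _)
        · exact absurd hh (hmono _ _ _ (by omega) ha).not_gt
      have := hm k hk b r; have := hm k hk b r'
      have := hnn k α hk.le α.2; have := hnn k β hk.le β.2
      cases b <;> simp only [q, Bool.false_eq_true, if_false, if_true]
      · exact key _ _ _ _ (by omega) (by omega)
      · exact key _ _ _ _ (by omega) (by omega)
  have hΨ2 : ∀ e, Ψ (g e) = Ψ (pat K pos) := by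
    intro e
    cases he : e.2.2.2
    · rw [← (h.pre 0).neg, ← hg]; exact hΨ1 _ (by simp [rev, he])
    · exact hΨ1 e he
  have hΨ0 : Ψ 0 = 0 := by
    refine le_antisymm ?_ ((h.pre 0).nonneg _)
    simpa [Real.zero_rpow hp.ne'] using (h.pre 0).upper Unit ∅ (fun _ => 0) (fun _ => 0)
  have main := chain_bound (h.pre 0).mi (h.pre 0).nonneg hΨ0 hC tail rev hrev (fun e => e.2.1)
    hw (fun _ => rfl) hw1 (fun v => by
      obtain ⟨e, -, he⟩ := mem_image.1 v.2
      exact ⟨e, Subtype.ext he⟩) g hg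
    (fun s v β a => Inv D m K' t (Fintype.card J0) s v.1 β.1 a) t ht
    (c := σ * ((t : ℝ) * Fintype.card J0) ^ p / (2 * 2 ^ p)) (by positivity)
    (fun v β => inv_zero _ _ _ _ _ _ _)
    (fun s hs e β a hI hne => inv_step e.2.1.2 β.2 e.2.2.1.2 (fun hh => hne (Fin.ext hh)) hs hK
      (Bool.toNat_le _) hn (hmono (rev e)) (R1 e) (R2 e) _ _ (fun k hk r => hm k hk _ r)
      (fun k hk r => hm k hk _ r) hI)
    (fun v β a hI => inv_fin h β.2 hI (Nat.mul_pos ht hJ) hσ)
  have hκ := kappa_bound tail (fun e => e.2.1) hw hw1 (by rw [Fintype.card_fin]; omega)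
    (ε := 1 / (4 * t)) (by
      intro α α'
      have e1 : ∀ (v : univ.image tl) (α : Fin D), pl tail (fun e => e.2.1) w v α =
          (∑ o : Bool, ∑ ω, if y ω ∘ PP D m n α (!o) = v.1 then lam ω else 0) / (2 * D) := by
        intro v α
        rw [sum_comm, sum_div, pl, Fintype.sum_prod_type]
        refine sum_congr rfl fun ω _ => ?_
        rw [Fintype.sum_prod_type, sum_eq_single α (fun α' _ hne => by simp [hne]) (by simp),
          Fintype.sum_prod_type]
        simp only [tail, tl, w, Subtype.ext_iff, and_true, sum_const, card_univ, Fintype.card_fin,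
          nsmul_eq_mul, sum_div, mul_sum]
        refine sum_congr rfl fun o _ => ?_
        split_ifs
        · field_simp
        · simp
      simp only [e1, ← sub_div, ← sum_sub_distrib, abs_div, ← sum_div, Fintype.card_fin]
      rw [abs_of_pos (by positivity : (0 : ℝ) < 2 * D), div_le_div_iff₀ (by positivity) hD0]
      have : ∑ v : univ.image tl, |∑ o : Bool, ∑ ω,
          ((if y ω ∘ PP D m n α (!o) = v.1 then lam ω else 0) -
            if y ω ∘ PP D m n α' (!o) = v.1 then lam ω else 0)| ≤ 2 * (1 / (4 * t)) := by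
        refine (sum_le_sum fun v _ => abs_sum_le_sum_abs _ _).trans ?_
        rw [sum_comm]
        refine le_trans (sum_le_sum (g := fun _ => (1 / (4 * t) : ℝ)) fun o _ => ?_) (by simp)
        have := hclose (α, !o) (α', !o) (univ.image tl)
        rw [← sum_coe_sort] at this
        simpa only [sum_sub_distrib] using this
      nlinarith)
  have hΓ := gam_total tail rev hrev (fun e => e.2.1) hw (fun _ => rfl) hw1 hκ t
  simp only [hΨ2, ← sum_mul, hw1, one_mul] at main
  rw [Fintype.card_fin, hD'] at hΓ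
  have e2 : 1 - (t : ℝ) * (1 / (4 * t) + 1 / (4 * t)) = 1 / 2 := by field_simp; ring
  rw [e2] at hΓ
  have hc : 0 ≤ σ * ((t : ℝ) * Fintype.card J0) ^ p / (2 * 2 ^ p) := by positivity
  nlinarith

theorem not_good {p C θ : ℝ} {Ψ : (ℕ →₀ ℝ) → ℝ} (h : Good p C θ Ψ) (hp : 1 < p) (hC : 0 ≤ C)
    (hθ : 0 < θ) : False := by
  obtain ⟨t, ht1, ht⟩ : ∃ t : ℕ, 1 ≤ t ∧ 32 * 2 ^ p * C < (t : ℝ) ^ (p - 1) := by
    have h1 := (tendsto_rpow_atTop (sub_pos.2 hp)).comp tendsto_natCast_atTop_atTop
    obtain ⟨t, h2, h3⟩ := ((eventually_ge_atTop 1).and (h1.eventually_gt_atTop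
      (32 * 2 ^ p * C))).exists
    exact ⟨t, h2, h3⟩
  have ht' : (0 : ℝ) < t := by exact_mod_cast ht1
  have hθp : 0 < θ ^ p := by positivity
  have hne : ∀ K, (vals p Ψ K).Nonempty := fun K => by
    obtain ⟨x, hx, -⟩ := h.vals_upper K; exact ⟨x, hx⟩
  have hlow : ∀ R, θ ^ p ≤ sInf (vals p Ψ (R + 1)) := fun R =>
    le_csInf (hne _) (h.vals_lower hθ (by omega))
  have hinf : ∀ R, ∀ x ∈ vals p Ψ (R + 1), sInf (vals p Ψ (R + 1)) ≤ x := fun R x hx =>
    csInf_le ⟨_, h.vals_lower hθ (by omega)⟩ hx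
  obtain ⟨R, hR⟩ := growth (fun R => sInf (vals p Ψ (R + 1))) (C := 2 ^ ⌈p⌉₊) ⌈p⌉₊ (2 * t + 1)
    hθp hlow (fun R => by
      obtain ⟨x, hx, hx'⟩ := h.vals_upper (R + 1)
      refine (hinf R x hx).trans (hx'.trans ?_)
      rw [← mul_pow, ← Real.rpow_natCast]
      push_cast
      exact Real.rpow_le_rpow_of_exponent_le (by have : (0 : ℝ) ≤ R := Nat.cast_nonneg _; linarith)
        (Nat.le_ceil _))
  have e : R + (2 * t + 1) + 1 = R + 1 + 2 * t + 1 := by ring
  simp only [e] at hR
  obtain ⟨_, ⟨J0, _, pos, hJ, ho, rfl⟩, hx⟩ := exists_lt_of_csInf_lt (hne (R + 1 + 2 * t + 1))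
    (show sInf (vals p Ψ (R + 1 + 2 * t + 1)) < 2 * sInf (vals p Ψ (R + 1 + 2 * t + 1)) by
      linarith [hlow (R + 1 + 2 * t)])
  have hσ := (hθp.trans_le (hlow R))
  have main := core h (by linarith) hC ht1 hJ pos ho hσ.le (hinf R)
  have hJ' : (0 : ℝ) < Fintype.card J0 := by exact_mod_cast hJ
  have hJp : (0 : ℝ) < (Fintype.card J0 : ℝ) ^ p := by positivity
  rw [div_lt_iff₀ hJp] at hx
  set σ := sInf (vals p Ψ (R + 1))
  have h1 : Ψ (pat (R + 1 + 2 * t + 1) pos) ≤ 4 * σ * (Fintype.card J0 : ℝ) ^ p := by nlinarith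
  have h2 : (t : ℝ) ^ p = (t : ℝ) ^ (p - 1) * t := by
    rw [← Real.rpow_add_one ht'.ne']; congr 1; ring
  rw [Real.mul_rpow ht'.le hJ'.le, div_le_iff₀ (by positivity), h2] at main
  have h3 : C * t * Ψ (pat (R + 1 + 2 * t + 1) pos) ≤ C * t * (4 * σ * (Fintype.card J0 : ℝ) ^ p) :=
    mul_le_mul_of_nonneg_left h1 (by positivity)
  have h4 : (0 : ℝ) < 2 ^ p := by positivity
  have h5 : 0 < σ * t * (Fintype.card J0 : ℝ) ^ p := by positivity
  have h6 := mul_lt_mul_of_pos_right ht h5
  nlinarith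

end Vale.Agent.P125
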