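import Vale.Agent.P125.Limit

namespace Vale.Agent.P125

open Finset Filter Topology
open Finsupp (single)

/-- alternating block pattern -/
noncomputable def pat (K : ℕ) {J : Type} [Fintype J] (pos : ℕ → Bool → J → ℕ) : ℕ →₀ ℝ :=
  ∑ k ∈ range K, ∑ r, (single (pos k false r) 1 - single (pos k true r) 1)

/-- the blocks are ordered -/
def Ord (K : ℕ) {J : Type} (pos : ℕ → Bool → J → ℕ) : Prop :=
  (∀ k < K, ∀ r r', pos k false r < pos k true r') ∧
    ∀ k k' b b' r r', k < k' → k' < K → pos k b r < pos k' b' r'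

/-- support condition -/
def Supp (a : ℕ →₀ ℝ) (Q : ℕ → Prop) : Prop := ∀ x, a x ≠ 0 → Q x

theorem Supp.zero (Q : ℕ → Prop) : Supp 0 Q := fun _ h => absurd rfl h

theorem Supp.add {a b : ℕ →₀ ℝ} {Q : ℕ → Prop} (ha : Supp a Q) (hb : Supp b Q) :
    Supp (a + b) Q := fun x h => by
  by_cases h1 : a x = 0
  · exact hb x (by simpa [h1] using h)
  · exact ha x h1

theorem Supp.sub {a b : ℕ →₀ ℝ} {Q : ℕ → Prop} (ha : Supp a Q) (hb : Supp b Q) :
    Supp (a - b) Q := fun x h => by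
  by_cases h1 : a x = 0
  · exact hb x (by simpa [h1] using h)
  · exact ha x h1

theorem Supp.single {i : ℕ} {c : ℝ} {Q : ℕ → Prop} (h : Q i) : Supp (single i c) Q :=
  fun x hx => by
    rw [Finsupp.single_apply] at hx
    split_ifs at hx with h'
    · exact h' ▸ h
    · exact absurd rfl hx

theorem Supp.sum {ι : Type*} {s : Finset ι} {f : ι → ℕ →₀ ℝ} {Q : ℕ → Prop}
    (h : ∀ i ∈ s, Supp (f i) Q) : Supp (∑ i ∈ s, f i) Q := fun x hx => by
  rw [Finsupp.finsetSum_apply] at hx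
  obtain ⟨i, hi, h'⟩ := exists_ne_zero_of_sum_ne_zero hx
  exact h i hi x h'

theorem Supp.mono {a : ℕ →₀ ℝ} {Q Q' : ℕ → Prop} (ha : Supp a Q) (h : ∀ x, Q x → Q' x) :
    Supp a Q' := fun x hx => h x (ha x hx)

theorem supp_pat {K : ℕ} {J : Type} [Fintype J] {pos : ℕ → Bool → J → ℕ} {Q : ℕ → Prop}
    (h : ∀ k < K, ∀ b r, Q (pos k b r)) : Supp (pat K pos) Q :=
  Supp.sum fun k hk => Supp.sum fun r _ =>
    (Supp.single (h k (mem_range.1 hk) _ r)).sub (Supp.single (h k (mem_range.1 hk) _ r))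

theorem pat_eq (K : ℕ) {J : Type} [Fintype J] (pos : ℕ → Bool → J → ℕ) :
    pat K pos = ∑ τ : Fin K × Bool × J, single (pos τ.1 τ.2.1 τ.2.2) (if τ.2.1 then -1 else 1) := by
  rw [pat, Fintype.sum_prod_type, ← Fin.sum_univ_eq_sum_range
    (fun k => ∑ r, (single (pos k false r) (1 : ℝ) - single (pos k true r) 1))]
  refine sum_congr rfl fun k _ => ?_
  rw [Fintype.sum_prod_type, Fintype.sum_bool, ← sum_add_distrib]
  refine sum_congr rfl fun r _ => ?_
  simp [Finsupp.single_neg, sub_eq_neg_add]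

variable {p C θ : ℝ} {Ψ : (ℕ →₀ ℝ) → ℝ}

theorem Good.mono (h : Good p C θ Ψ) {a b : ℕ →₀ ℝ} {Q : ℕ → Prop} (ha : Supp a Q)
    (hb : Supp b fun j => ∀ i, Q i → i < j) : Ψ a ≤ Ψ (a + b) := by
  refine (h.pre (b.support.sup id + 1)).mono a b fun i j hi hj => ⟨hb j hj i (ha i hi), ?_⟩
  have : id j ≤ b.support.sup id := le_sup (f := id) (Finsupp.mem_support_iff.2 hj)
  exact Nat.lt_succ_of_le this

theorem Good.pat_inv (h : Good p C θ Ψ) {K : ℕ} {J : Type} [Fintype J]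
    {pos pos' : ℕ → Bool → J → ℕ} (h1 : Ord K pos) (h2 : Ord K pos')
    (h3 : ∀ k < K, ∀ b r r', pos k b r < pos k b r' ↔ pos' k b r < pos' k b r') :
    Ψ (pat K pos) = Ψ (pat K pos') := by
  rw [pat_eq, pat_eq]
  refine h.inv _ (fun τ : Fin K × Bool × J => pos τ.1 τ.2.1 τ.2.2)
    (fun τ : Fin K × Bool × J => pos' τ.1 τ.2.1 τ.2.2) _ ?_
  rintro ⟨k, b, r⟩ ⟨k', b', r'⟩
  rcases lt_trichotomy k k' with hk | rfl | hk
  · exact iff_of_true (h1.2 _ _ _ _ _ _ hk k'.2) (h2.2 _ _ _ _ _ _ hk k'.2)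
  · cases b <;> cases b'
    · exact h3 _ k.2 _ _ _
    · exact iff_of_true (h1.1 _ k.2 _ _) (h2.1 _ k.2 _ _)
    · exact iff_of_false (h1.1 _ k.2 _ _).not_gt (h2.1 _ k.2 _ _).not_gt
    · exact h3 _ k.2 _ _ _
  · exact iff_of_false (h1.2 _ _ _ _ _ _ hk k.2).not_gt (h2.2 _ _ _ _ _ _ hk k.2).not_gt

theorem Good.pat_lower (h : Good p C θ Ψ) {K : ℕ} (hK : 1 ≤ K) {J : Type} [Fintype J]
    {pos : ℕ → Bool → J → ℕ} (h1 : Ord K pos) : (θ * Fintype.card J) ^ p ≤ Ψ (pat K pos) := by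
  obtain ⟨K, rfl⟩ : ∃ k, K = k + 1 := ⟨K - 1, by omega⟩
  have e : pat (K + 1) pos = ∑ r, single (pos 0 false r) 1 +
      (∑ k ∈ range K, ∑ r, (single (pos (k + 1) false r) 1 - single (pos (k + 1) true r) 1) -
        ∑ r, single (pos 0 true r) 1) := by
    rw [pat, sum_range_succ', sum_sub_distrib]; abel
  rw [e]
  refine le_trans ((h.pre (univ.sup (pos 0 false) + 1)).lower J (pos 0 false) fun r =>
    Nat.lt_succ_of_le (le_sup (f := pos 0 false) (mem_univ r))) ?_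
  refine h.mono (Q := fun x => ∃ r, x = pos 0 false r)
    (Supp.sum fun r _ => Supp.single ⟨r, rfl⟩) (Supp.sub (Supp.sum fun k hk => Supp.sum fun r _ =>
      Supp.sub (Supp.single ?_) (Supp.single ?_)) (Supp.sum fun r _ => Supp.single ?_))
  · rintro _ ⟨r', rfl⟩
    exact h1.2 _ _ _ _ _ _ (Nat.succ_pos _) (by have := mem_range.1 hk; omega)
  · rintro _ ⟨r', rfl⟩
    exact h1.2 _ _ _ _ _ _ (Nat.succ_pos _) (by have := mem_range.1 hk; omega)
  · rintro _ ⟨r', rfl⟩
    exact h1.1 _ (Nat.succ_pos _) _ _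

/-- normalised values of ordered patterns -/
def vals (p : ℝ) (Ψ : (ℕ →₀ ℝ) → ℝ) (K : ℕ) : Set ℝ :=
  {x | ∃ (J : Type) (_ : Fintype J) (pos : ℕ → Bool → J → ℕ), 0 < Fintype.card J ∧ Ord K pos ∧
    x = Ψ (pat K pos) / (Fintype.card J : ℝ) ^ p}

theorem Good.vals_lower (h : Good p C θ Ψ) (hθ : 0 < θ) {K : ℕ} (hK : 1 ≤ K) :
    ∀ x ∈ vals p Ψ K, θ ^ p ≤ x := by
  rintro _ ⟨J, _, pos, hJ, ho, rfl⟩
  have hJ' : (0 : ℝ) < Fintype.card J := by exact_mod_cast hJ
  rw [le_div_iff₀ (by positivity), ← Real.mul_rpow hθ.le hJ'.le]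
  exact h.pat_lower hK ho

theorem Good.vals_upper (h : Good p C θ Ψ) (K : ℕ) :
    ∃ x ∈ vals p Ψ K, x ≤ (2 * (K : ℝ)) ^ p := by
  refine ⟨_, ⟨Unit, inferInstance, fun k b _ => 2 * k + b.toNat, by simp,
    ⟨fun k _ _ _ => by simp, fun k k' b b' _ _ hk _ => ?_⟩, rfl⟩, ?_⟩
  · have := b.toNat_le; simp only; omega
  · rw [pat_eq]
    simp only [Fintype.card_unit, Nat.cast_one, Real.one_rpow, div_one]
    refine ((h.pre 0).upper _ univ _ _).trans (le_of_eq ?_)
    congr 1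
    simp [apply_ite abs, mul_comm]

/-- start of a cluster -/
def BB (D m k α : ℕ) : ℕ := (k * D + α) * (m + 1)

theorem BB_le {D m k k' α α' : ℕ} (h : k * D + α < k' * D + α') :
    BB D m k α + m < BB D m k' α' := by
  have := Nat.mul_le_mul_right (m + 1) (Nat.succ_le_of_lt h)
  simp only [BB]
  rw [Nat.succ_mul] at this
  omega

theorem BB_lt {D m k k' α α' : ℕ} (hα : α < D) (h : k < k') : BB D m k α + m < BB D m k' α' := by
  refine BB_le ?_
  have := Nat.mul_le_mul_right D (Nat.succ_le_of_lt h)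
  rw [Nat.succ_mul] at this
  omega

theorem BB_mono {D m k k' α : ℕ} (h : k ≤ k') : BB D m k α ≤ BB D m k' α :=
  Nat.mul_le_mul_right _ (Nat.add_le_add_right (Nat.mul_le_mul_right _ h) _)

/-- the nesting invariant -/
def Inv (D m K' t c0 s : ℕ) (v : ℕ → ℕ) (β : ℕ) (a : ℕ →₀ ℝ) : Prop :=
  ∃ (J : Type) (_ : Fintype J) (pos : ℕ → Bool → J → ℕ) (l : ℕ) (bL bR : ℕ →₀ ℝ),
    Fintype.card J = s * c0 ∧ t ≤ l + s ∧ l ≤ t + s ∧ a = bL + pat K' pos + bR ∧
    (∀ i < K', ∀ r r', pos i false r < pos i true r') ∧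
    (∀ i < K', ∀ b r, (∀ j < BB D m (l + 1 + i) β, v j < pos i b r) ∧
      pos i b r ≤ v (BB D m (l + 1 + i) β + m)) ∧
    Supp bL (fun x => x ≤ v (BB D m l β + m)) ∧
    Supp bR (fun x => ∀ j < BB D m (l + 1 + K') β, v j < x)

theorem inv_zero (D m K' t c0 : ℕ) (v : ℕ → ℕ) (β : ℕ) : Inv D m K' t c0 0 v β 0 :=
  ⟨Empty, inferInstance, fun _ _ r => r.elim, t, 0, 0, by simp, by simp, by simp, by simp [pat],
    fun _ _ r => r.elim, fun _ _ _ r => r.elim, Supp.zero _, Supp.zero _⟩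

theorem inv_fin (h : Good p C θ Ψ) {D m K' t c0 : ℕ} {v : ℕ → ℕ} {β : ℕ} (hβ : β < D)
    {a : ℕ →₀ ℝ} (hI : Inv D m K' t c0 t v β a) (h0 : 0 < t * c0) {σ : ℝ}
    (hσ : ∀ x ∈ vals p Ψ K', σ ≤ x) : σ * ((t : ℝ) * c0) ^ p / (2 * 2 ^ p) ≤ Ψ a := by
  obtain ⟨J, _, pos, l, bL, bR, hJ, -, -, rfl, h1, h2, h3, h4⟩ := hI
  have ho : Ord K' pos := ⟨h1, fun k k' b b' r r' hk hk' =>
    ((h2 k (by omega) b r).2).trans_lt ((h2 k' hk' b' r').1 _ (BB_lt hβ (by omega)))⟩
  have a1 := hσ _ ⟨J, inferInstance, pos, hJ ▸ h0, ho, rfl⟩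
  have hc : (0 : ℝ) < t * c0 := by exact_mod_cast h0
  rw [hJ, Nat.cast_mul, le_div_iff₀ (by positivity)] at a1
  have a2 : Ψ bL ≤ Ψ (bL + pat K' pos) := h.mono h3 (supp_pat fun k hk b r i hi =>
    hi.trans_lt ((h2 k hk b r).1 _ (BB_lt hβ (by omega))))
  have a3 : Ψ (bL + pat K' pos) ≤ Ψ (bL + pat K' pos + bR) :=
    h.mono (Q := fun x => ∃ j < BB D m (l + 1 + K') β, x ≤ v j)
      (Supp.add (h3.mono fun x hx => ⟨_, BB_lt hβ (by omega), hx⟩)
        (supp_pat fun k hk b r => ⟨_, BB_lt hβ (by omega), (h2 k hk b r).2⟩))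
      (h4.mono fun x hx i ⟨j, hj, hi⟩ => hi.trans_lt (hx j hj))
  have a4 := (h.pre 0).sub (bL + pat K' pos) bL
  rw [add_sub_cancel_left] at a4
  have h2p : (0 : ℝ) < 2 ^ p := by positivity
  rw [div_le_iff₀ (by positivity)]
  nlinarith

theorem split3 {M : Type*} [AddCommMonoid M] (F : ℕ → M) {K a b : ℕ} (h : a + b ≤ K) :
    ∑ k ∈ range K, F k = ∑ k ∈ range a, F k + ∑ i ∈ range b, F (a + i) +
      ∑ i ∈ range (K - (a + b)), F (a + b + i) := by
  obtain ⟨c, rfl⟩ := Nat.exists_eq_add_of_le h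
  rw [sum_range_add, sum_range_add, Nat.add_sub_cancel_left]

theorem inv_step {D m K' t s K n d : ℕ} {v w : ℕ → ℕ} {α β β' : ℕ} (hα : α < D) (hβ : β < D)
    (hβ' : β' < D) (hne : α ≠ β) (hs : s < t) (hK : K = K' + 2 * t + 1) (hd : d ≤ 1)
    (hn : n = BB D m (K + 1) 0)
    (hw : ∀ i j, i < j → j ≤ n → w i < w j)
    (R1 : ∀ k j j', j < BB D m (k + 1) α → BB D m (k + d) β' ≤ j' → j ≤ n → j' ≤ n → v j < w j')
    (R2 : ∀ k j j', j' < BB D m (k + d) β' → BB D m k α ≤ j → j ≤ n → j' ≤ n → w j' < v j)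
    {J0 : Type} [Fintype J0] (u z : ℕ → J0 → ℕ) (hu : ∀ k < K, ∀ r, u k r ≤ m)
    (hz : ∀ k < K, ∀ r, z k r ≤ m) {a : ℕ →₀ ℝ} (hI : Inv D m K' t (Fintype.card J0) s v β a) :
    Inv D m K' t (Fintype.card J0) (s + 1) w β'
      (a + ∑ k ∈ range K, ∑ r, (single (v (BB D m k α + u k r)) 1 -
        single (w (BB D m k β' + z k r)) 1)) := by
  obtain ⟨J, _, pos, l, bL, bR, hJ, l1, l2, rfl, h1, h2, h3, h4⟩ := hI
  obtain ⟨l', l3, l4, ha, hb⟩ : ∃ l', l' ≤ l ∧ l ≤ l' + 1 ∧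
      (∀ i, BB D m (l' + i) α + m < BB D m (l + i) β) ∧
      ∀ i, BB D m (l + i) β + m < BB D m (l' + 1 + i) α := by
    rcases lt_or_gt_of_ne hne with h | h
    · exact ⟨l, le_rfl, by omega, fun i => BB_le (by omega), fun i => BB_lt hβ (by omega)⟩
    · obtain ⟨l, rfl⟩ : ∃ k, l = k + 1 := ⟨l - 1, by omega⟩
      exact ⟨l, by omega, le_rfl, fun i => BB_lt hα (by omega), fun i => BB_le (by omega)⟩
  have hnn : ∀ k γ, k ≤ K → γ < D → BB D m k γ + m < n := fun k γ hk hγ =>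
    hn ▸ BB_lt hγ (by omega)
  have hwle : ∀ i j, i ≤ j → j ≤ n → w i ≤ w j := fun i j hij hj => by
    rcases hij.eq_or_lt with rfl | h
    · exact le_rfl
    · exact (hw i j h hj).le
  let U : ℕ → ℕ →₀ ℝ := fun k => ∑ r, single (v (BB D m k α + u k r)) 1
  let Z : ℕ → ℕ →₀ ℝ := fun k => ∑ r, single (w (BB D m k β' + z k r)) 1
  -- the two transfer rules
  have T1 : ∀ i j j', j < BB D m (l' + 1 + i) α → BB D m (l' + d + i) β' ≤ j' → j ≤ n → j' ≤ n →
      v j < w j' := fun i j j' a b c e =>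
    R1 (l' + i) j j' (by rwa [show l' + i + 1 = l' + 1 + i by omega])
      (by rwa [show l' + i + d = l' + d + i by omega]) c e
  have T2 : ∀ i j j', j' < BB D m (l' + d + 1 + i) β' → BB D m (l' + 1 + i) α ≤ j → j ≤ n →
      j' ≤ n → w j' < v j := fun i j j' a b c e =>
    R2 (l' + 1 + i) j j' (by rwa [show l' + 1 + i + d = l' + d + 1 + i by omega]) b c e
  refine ⟨J ⊕ J0, inferInstance, fun i b => Sum.elim (pos i b) fun r =>
    if b then w (BB D m (l' + d + 1 + i) β' + z (l' + d + 1 + i) r)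
    else v (BB D m (l' + 1 + i) α + u (l' + 1 + i) r), l' + d,
    bL + ∑ k ∈ range (l' + 1), U k - ∑ k ∈ range (l' + d + 1), Z k,
    bR + ∑ i ∈ range (K - (l' + 1 + K')), U (l' + 1 + K' + i) -
      ∑ i ∈ range (K - (l' + d + 1 + K')), Z (l' + d + 1 + K' + i),
    by rw [Fintype.card_sum, hJ]; ring, by omega, by omega, ?_, ?_, ?_, ?_, ?_⟩
  · simp only [sum_sub_distrib, pat, Fintype.sum_sum_type, Sum.elim_inl, Sum.elim_inr,
      sum_add_distrib, Bool.false_eq_true, if_false, if_true]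
    change _ + (∑ k ∈ range K, U k - ∑ k ∈ range K, Z k) = _
    rw [split3 U (a := l' + 1) (b := K') (by omega), split3 Z (a := l' + d + 1) (b := K') (by omega)]
    simp only [U, Z]
    abel
  · intro i hi r r'
    have b1 := ha (1 + i)
    have b2 := hb (1 + i)
    have b3 := hnn (l' + d + 1 + i) β' (by omega) hβ'
    have b4 := hnn (l + 1 + i) β (by omega) hβ
    simp only [← add_assoc] at b1 b2
    rcases r with r | r <;> rcases r' with r' | r' <;>
      simp only [Sum.elim_inl, Sum.elim_inr, Bool.false_eq_true, if_false, if_true]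
    · exact h1 i hi r r'
    · have := hz (l' + d + 1 + i) (by omega) r'
      exact (h2 i hi false r).2.trans_lt (T1 (1 + i) _ _ (by rw [← add_assoc]; omega)
        (by rw [← add_assoc]; omega) (by omega) (by omega))
    · have := hu (l' + 1 + i) (by omega) r
      exact (h2 i hi true r').1 _ (by omega)
    · have := hu (l' + 1 + i) (by omega) r
      have := hz (l' + d + 1 + i) (by omega) r'
      exact T1 (1 + i) _ _ (by rw [← add_assoc]; omega)
        (by rw [← add_assoc]; omega) (by omega) (by omega)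
  · intro i hi b r
    have b1 := ha (1 + i)
    have b2 := hb (1 + i)
    have b3 := hnn (l' + d + 1 + i) β' (by omega) hβ'
    have b4 := hnn (l + 1 + i) β (by omega) hβ
    simp only [← add_assoc] at b1 b2
    rcases r with r | r
    · simp only [Sum.elim_inl]
      exact ⟨fun j hj => (T2 i _ j hj le_rfl (by omega) (by omega)).trans
        ((h2 i hi b r).1 _ (by omega)), ((h2 i hi b r).2.trans_lt (T1 (1 + i) _ _
          (by rw [← add_assoc]; omega) (by rw [← add_assoc]; omega) (by omega) (by omega))).le⟩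
    · have c1 := hu (l' + 1 + i) (by omega) r
      have c2 := hz (l' + d + 1 + i) (by omega) r
      cases b <;> simp only [Sum.elim_inr, Bool.false_eq_true, if_false, if_true]
      · exact ⟨fun j hj => T2 i _ j hj (by omega) (by omega) (by omega), (T1 (1 + i) _ _
          (by rw [← add_assoc]; omega) (by rw [← add_assoc]; omega) (by omega) (by omega)).le⟩
      · exact ⟨fun j hj => hw _ _ (by omega) (by omega), hwle _ _ (by omega) (by omega)⟩
  · have b2 := hb 0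
    have b3 := hnn (l' + d) β' (by omega) hβ'
    have b4 := hnn l β (by omega) hβ
    simp only [add_zero] at b2
    refine (Supp.add (h3.mono fun x hx => ?_) (Supp.sum fun k hk => Supp.sum fun r _ =>
      Supp.single ?_)).sub (Supp.sum fun k hk => Supp.sum fun r _ => Supp.single ?_)
    · exact (hx.trans_lt (T1 0 _ _ (by simpa using b2) (by simp) (by omega) (by omega))).le
    · have hk := mem_range.1 hk
      have c1 := hu k (by omega) r
      have c2 : BB D m k α + m < BB D m (l' + 1) α := BB_lt hα hk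
      have c3 := hnn k α (by omega) hα
      exact (T1 0 _ _ (by rw [add_zero]; omega) (by simp) (by omega) (by omega)).le
    · have hk := mem_range.1 hk
      have c1 := hz k (by omega) r
      have c2 : BB D m k β' ≤ BB D m (l' + d) β' := BB_mono (by omega)
      exact hwle _ _ (by omega) (by omega)
  · have b1 := ha (1 + K')
    have b3 := hnn (l' + d + 1 + K') β' (by omega) hβ'
    have b4 := hnn (l' + 1 + K') α (by omega) hα
    simp only [← add_assoc] at b1
    refine (Supp.add (h4.mono fun x hx j hj => ?_) (Supp.sum fun k hk => Supp.sum fun r _ =>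
      Supp.single fun j hj => ?_)).sub
        (Supp.sum fun k hk => Supp.sum fun r _ => Supp.single fun j hj => ?_)
    · exact (T2 K' _ j hj le_rfl (by omega) (by omega)).trans (hx _ (by omega))
    · have hk := mem_range.1 hk
      have c1 := hu (l' + 1 + K' + k) (by omega) r
      have c2 : BB D m (l' + 1 + K') α ≤ BB D m (l' + 1 + K' + k) α := BB_mono (by omega)
      have c3 := hnn (l' + 1 + K' + k) α (by omega) hα
      exact T2 K' _ j hj (by omega) (by omega) (by omega)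
    · have hk := mem_range.1 hk
      have c1 := hz (l' + d + 1 + K' + k) (by omega) r
      have c2 : BB D m (l' + d + 1 + K') β' ≤ BB D m (l' + d + 1 + K' + k) β' :=
        BB_mono (by omega)
      have c3 := hnn (l' + d + 1 + K' + k) β' (by omega) hβ'
      exact hw _ _ (by omega) (by omega)

end Vale.Agent.P125
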