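import Vale.Agent.P125.Tree

namespace Vale.Agent.P125

open Finset Filter Topology

namespace Tr

variable {X : Type*} [NormedAddCommGroup X]

theorem val_add {φ φ1 φ2 : X → X} (h : ∀ y, φ y = φ1 y + φ2 y) (T : Tr X) (x z : X) :
    T.val φ (x + z) ≤ T.val φ1 x + T.val φ2 z := by
  induction T generalizing x z with
  | leaf => exact norm_add_le x z
  | node y l r ihl ihr =>
    have h1 := ihl (x + φ1 y) (z + φ2 y)
    have h2 := ihr (x - φ1 y) (z - φ2 y)
    have e1 : x + z + φ y = x + φ1 y + (z + φ2 y) := by rw [h]; abel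
    have e2 : x + z - φ y = x - φ1 y + (z - φ2 y) := by rw [h]; abel
    simp only [val]; rw [e1, e2]; linarith

theorem val_le_cost {φ : X → X} {k : X → ℝ} (h : ∀ y, ‖φ y‖ ≤ k y) (T : Tr X) (x : X) :
    T.val φ x ≤ ‖x‖ + T.cost k := by
  induction T generalizing x with
  | leaf => simp [val, cost]
  | node y l r ihl ihr =>
    have h1 := ihl (x + φ y)
    have h2 := ihr (x - φ y)
    have := norm_add_le x (φ y)
    have := norm_sub_le x (φ y)
    have := h y
    simp only [val, cost]; linarith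

theorem val_lip (φ : X → X) (T : Tr X) (x z : X) : T.val φ (x + z) ≤ T.val φ x + ‖z‖ := by
  induction T generalizing x with
  | leaf => exact norm_add_le x z
  | node y l r ihl ihr =>
    have h1 := ihl (x + φ y)
    have h2 := ihr (x - φ y)
    have e1 : x + z + φ y = x + φ y + z := by abel
    have e2 : x + z - φ y = x - φ y + z := by abel
    simp only [val]; rw [e1, e2]; linarith

theorem val_le_depth {δ : ℝ} (hδ : 0 ≤ δ) (T : Tr X) (hT : T.small δ) (n : ℕ) (hn : T.depth ≤ n)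
    (x : X) : T.val id x ≤ ‖x‖ + δ * n := by
  induction T generalizing x n with
  | leaf => have : 0 ≤ δ * n := by positivity
            simp only [val]; linarith
  | node y l r ihl ihr =>
    obtain ⟨n, rfl⟩ : ∃ m, n = m + 1 := ⟨n - 1, by simp only [depth] at hn; omega⟩
    simp only [depth] at hn
    have h1 := ihl hT.2.1 n (by omega) (x + y)
    have h2 := ihr hT.2.2 n (by omega) (x - y)
    have := norm_add_le x y
    have := norm_sub_le x y
    have := hT.1
    simp only [val, id]; push_cast; linarith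

omit [NormedAddCommGroup X] in
theorem cost_add {k k1 k2 : X → ℝ} (h : ∀ y, k1 y + k2 y ≤ k y) (T : Tr X) :
    T.cost k1 + T.cost k2 ≤ T.cost k := by
  induction T with
  | leaf => simp [cost]
  | node y l r ihl ihr => have := h y; simp only [cost]; linarith

omit [NormedAddCommGroup X] in
theorem cost_const (c : ℝ) (T : Tr X) : T.cost (fun _ => c) = c * T.cost (fun _ => 1) := by
  induction T with
  | leaf => simp [cost]
  | node y l r ihl ihr => simp only [cost, ihl, ihr]; ring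

omit [NormedAddCommGroup X] in
theorem cost_nonneg {k : X → ℝ} (h : ∀ y, 0 ≤ k y) (T : Tr X) : 0 ≤ T.cost k := by
  induction T with
  | leaf => simp [cost]
  | node y l r ihl ihr => have := h y; simp only [cost]; linarith

/-- trees of depth at most `m` have small expected terminal norm -/
def Thin (X : Type*) [NormedAddCommGroup X] (η : ℝ) (m : ℕ) : Prop :=
  ∀ δ : ℝ, 0 < δ → ∀ T : Tr X, T.small δ → T.depth ≤ m → T.val id 0 ≤ η * δ * m

theorem level {η δ : ℝ} {m : ℕ} (hη : 0 ≤ η) (hδ : 0 < δ) (hm : 1 ≤ m) (hth : Thin X η m)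
    {φ : X → X} {k : X → ℝ} (hφ : ∀ y, ‖φ y‖ ≤ δ) (hk : ∀ y, 0 ≤ k y)
    (hk' : ∀ y, φ y ≠ 0 → η * δ ≤ k y) (T : Tr X) :
    ∀ r ≤ m, ∀ x, ∃ T' : Tr X, T'.small δ ∧ T'.depth ≤ r ∧
      T.val φ x ≤ T'.val id x + T.cost k + η * δ * ((m : ℝ) - r) := by
  induction T with
  | leaf =>
    intro r hr x
    refine ⟨leaf, trivial, Nat.zero_le _, ?_⟩
    have : (r : ℝ) ≤ m := by exact_mod_cast hr
    have : 0 ≤ η * δ * ((m : ℝ) - r) := by
      have : 0 ≤ (m : ℝ) - r := by linarith
      positivity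
    simp only [val, cost]; linarith
  | node y l r ihl ihr =>
    by_cases hy : φ y = 0
    · intro s hs x
      obtain ⟨T1, a1, b1, c1⟩ := ihl s hs x
      obtain ⟨T2, a2, b2, c2⟩ := ihr s hs x
      have := hk y
      rcases le_total (T1.val id x) (T2.val id x) with h | h
      · exact ⟨T2, a2, b2, by simp only [val, cost, hy, add_zero, sub_zero]; linarith⟩
      · exact ⟨T1, a1, b1, by simp only [val, cost, hy, add_zero, sub_zero]; linarith⟩
    · have hpos : ∀ s, s + 1 ≤ m → ∀ x, ∃ T' : Tr X, T'.small δ ∧ T'.depth ≤ s + 1 ∧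
          (node y l r).val φ x ≤ T'.val id x + (node y l r).cost k +
            η * δ * ((m : ℝ) - ((s + 1 : ℕ) : ℝ)) := by
        intro s hs x
        obtain ⟨T1, a1, b1, c1⟩ := ihl s (by omega) (x + φ y)
        obtain ⟨T2, a2, b2, c2⟩ := ihr s (by omega) (x - φ y)
        refine ⟨node (φ y) T1 T2, ⟨hφ y, a1, a2⟩, by simp only [depth]; omega, ?_⟩
        have := hk' y hy
        simp only [val, cost, id]
        push_cast
        linarith
      intro s hs x
      cases s with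
      | succ s => exact hpos s hs x
      | zero =>
        obtain ⟨m, rfl⟩ : ∃ n, m = n + 1 := ⟨m - 1, by omega⟩
        obtain ⟨T', a, b, c⟩ := hpos m le_rfl x
        refine ⟨leaf, trivial, le_rfl, ?_⟩
        have h1 := hth δ hδ T' a b
        have h2 := val_lip id T' 0 x
        rw [zero_add] at h2
        have e : (leaf : Tr X).val id x = ‖x‖ := rfl
        rw [e]
        simp only [sub_self, mul_zero, add_zero, Nat.cast_zero, sub_zero] at c ⊢
        linarith

theorem level' {η δ : ℝ} {m : ℕ} (hη : 0 ≤ η) (hδ : 0 < δ) (hm : 1 ≤ m) (hth : Thin X η m)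
    {φ : X → X} {k : X → ℝ} (hφ : ∀ y, ‖φ y‖ ≤ δ) (hk : ∀ y, 0 ≤ k y)
    (hk' : ∀ y, φ y ≠ 0 → η * δ ≤ k y) (T : Tr X) :
    T.val φ 0 ≤ T.cost k + η * δ * m := by
  obtain ⟨T', a, b, c⟩ := level hη hδ hm hth hφ hk hk' T m le_rfl 0
  have := hth δ hδ T' a b
  simp only [sub_self, mul_zero, add_zero] at c
  linarith

theorem total_bound {η : ℕ → ℝ} (h0 : ∀ j, 0 ≤ η j) (h1 : ∀ j, η j ≤ 1)
    (hth : ∀ j, Thin X (η j) (j + 1)) {κ : X → ℝ} (hκ : ∀ y, 0 ≤ κ y)
    (hbig : ∀ y, 1 < ‖y‖ → ‖y‖ ≤ κ y)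
    (hlev : ∀ j y, (1 / 2 : ℝ) ^ (j + 1) < ‖y‖ → ‖y‖ ≤ (1 / 2 : ℝ) ^ j →
      η j * (1 / 2 : ℝ) ^ j ≤ κ y) (T : Tr X) :
    T.val id 0 ≤ T.cost κ + 4 := by
  classical
  have claim : ∀ J : ℕ, T.val id 0 ≤ T.cost (fun y => if (1 / 2 : ℝ) ^ J < ‖y‖ then κ y else 0) +
      (4 - (2 * J + 4) * (1 / 2 : ℝ) ^ J) +
      T.val (fun y => if (1 / 2 : ℝ) ^ J < ‖y‖ then 0 else y) 0 := by
    intro J
    induction J with
    | zero =>
      have a := val_add (φ := id) (φ1 := fun y => if (1 / 2 : ℝ) ^ 0 < ‖y‖ then y else 0)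
        (φ2 := fun y => if (1 / 2 : ℝ) ^ 0 < ‖y‖ then 0 else y)
        (fun y => by split_ifs <;> simp) T 0 0
      have b := val_le_cost (φ := fun y => if (1 / 2 : ℝ) ^ 0 < ‖y‖ then y else 0)
        (k := fun y => if (1 / 2 : ℝ) ^ 0 < ‖y‖ then κ y else 0)
        (fun y => by
          split_ifs with h
          · exact hbig y (by simpa using h)
          · simp) T 0
      simp only [add_zero, norm_zero, zero_add] at a b
      simp only [Nat.cast_zero, mul_zero, zero_add]
      norm_num at a b ⊢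
      linarith
    | succ J ih =>
      have hp : (0 : ℝ) < (1 / 2) ^ J := by positivity
      have hs : (1 / 2 : ℝ) ^ (J + 1) = (1 / 2) ^ J / 2 := by rw [pow_succ]; ring
      have a := val_add (φ := fun y => if (1 / 2 : ℝ) ^ J < ‖y‖ then 0 else y)
        (φ1 := fun y => if (1 / 2 : ℝ) ^ (J + 1) < ‖y‖ ∧ ‖y‖ ≤ (1 / 2 : ℝ) ^ J then y else 0)
        (φ2 := fun y => if (1 / 2 : ℝ) ^ (J + 1) < ‖y‖ then 0 else y)
        (fun y => by
          by_cases c1 : (1 / 2 : ℝ) ^ J < ‖y‖
          · have c2 : (1 / 2 : ℝ) ^ (J + 1) < ‖y‖ := by linarith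
            simp only [c1, c2, not_le.2 c1, if_true, and_false, if_false, add_zero]
          · by_cases c2 : (1 / 2 : ℝ) ^ (J + 1) < ‖y‖
            · simp only [c1, c2, not_lt.1 c1, if_true, and_true, if_false, add_zero]
            · simp only [c1, c2, false_and, if_false, zero_add]) T 0 0
      have b := level' (h0 J) hp (Nat.le_add_left 1 J) (hth J)
        (φ := fun y => if (1 / 2 : ℝ) ^ (J + 1) < ‖y‖ ∧ ‖y‖ ≤ (1 / 2 : ℝ) ^ J then y else 0)
        (k := fun y => if (1 / 2 : ℝ) ^ (J + 1) < ‖y‖ ∧ ‖y‖ ≤ (1 / 2 : ℝ) ^ J then κ y else 0)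
        (fun y => by
          split_ifs with h
          · exact h.2
          · simp)
        (fun y => by
          split_ifs with h
          · exact hκ y
          · exact le_rfl)
        (fun y hy => by
          split_ifs with h
          · exact hlev J y h.1 h.2
          · exact absurd (if_neg h) hy) T
      have c := cost_add (k := fun y => if (1 / 2 : ℝ) ^ (J + 1) < ‖y‖ then κ y else 0)
        (k1 := fun y => if (1 / 2 : ℝ) ^ J < ‖y‖ then κ y else 0)
        (k2 := fun y => if (1 / 2 : ℝ) ^ (J + 1) < ‖y‖ ∧ ‖y‖ ≤ (1 / 2 : ℝ) ^ J then κ y else 0)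
        (fun y => by
          by_cases c1 : (1 / 2 : ℝ) ^ J < ‖y‖
          · have c2 : (1 / 2 : ℝ) ^ (J + 1) < ‖y‖ := by linarith
            simp only [c1, c2, not_le.2 c1, if_true, and_false, if_false, add_zero, le_refl]
          · by_cases c2 : (1 / 2 : ℝ) ^ (J + 1) < ‖y‖
            · simp only [c1, c2, not_lt.1 c1, if_true, and_true, if_false, zero_add, le_refl]
            · simp only [c1, c2, false_and, if_false, zero_add, le_refl]) T
      have d : η J * (1 / 2 : ℝ) ^ J * ((J + 1 : ℕ) : ℝ) ≤ (1 / 2 : ℝ) ^ J * (J + 1) := by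
        push_cast
        have : 0 ≤ (1 / 2 : ℝ) ^ J * (J + 1) := by positivity
        nlinarith [h1 J]
      rw [add_zero] at a
      have e : (4 - (2 * ((J + 1 : ℕ) : ℝ) + 4) * (1 / 2 : ℝ) ^ (J + 1)) =
          4 - (2 * J + 4) * (1 / 2 : ℝ) ^ J + (1 / 2 : ℝ) ^ J * (J + 1) := by
        rw [hs]; push_cast; ring
      rw [e]; linarith
  have claim2 : ∀ J : ℕ, T.val id 0 ≤ T.cost κ + 4 + (1 / 2 : ℝ) ^ J * T.cost (fun _ => 1) := by
    intro J
    have hp : (0 : ℝ) < (1 / 2) ^ J := by positivity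
    have a := claim J
    have b := val_le_cost (φ := fun y => if (1 / 2 : ℝ) ^ J < ‖y‖ then 0 else y)
      (k := fun _ => (1 / 2 : ℝ) ^ J) (fun y => by
        split_ifs with h
        · simp
        · exact not_lt.1 h) T 0
    rw [cost_const] at b
    have c := cost_add (k := κ) (k1 := fun y => if (1 / 2 : ℝ) ^ J < ‖y‖ then κ y else 0)
      (k2 := fun _ => 0) (fun y => by
        split_ifs
        · simp
        · simpa using hκ y) T
    rw [cost_const 0] at c
    have : 0 ≤ (2 * J + 4) * (1 / 2 : ℝ) ^ J := by positivity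
    simp only [norm_zero, zero_add, zero_mul, add_zero] at b c
    linarith
  have lim : Tendsto (fun J : ℕ => T.cost κ + 4 + (1 / 2 : ℝ) ^ J * T.cost (fun _ => 1)) atTop
      (𝓝 (T.cost κ + 4 + 0 * T.cost (fun _ => 1))) :=
    tendsto_const_nhds.add ((tendsto_pow_atTop_nhds_zero_of_lt_one (by norm_num)
      (by norm_num)).mul_const _)
  simpa using ge_of_tendsto' lim claim2

theorem exists_kappa (hA : ∀ η : ℝ, 0 < η → ∃ M : ℕ, ∀ m ≥ M, Thin X η m) :
    ∃ κ : X → ℝ, (∀ T : Tr X, T.val id 0 ≤ T.cost κ + 4) ∧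
      ∀ ε : ℝ, 0 < ε → ∃ s : ℝ, 0 < s ∧ ∀ y, ‖y‖ ≤ s → κ y ≤ ε * ‖y‖ := by
  classical
  let η : ℕ → ℝ := fun j => sInf {e | 0 ≤ e ∧ Thin X e (j + 1)}
  have hone : ∀ j, (1 : ℝ) ∈ {e | 0 ≤ e ∧ Thin X e (j + 1)} := fun j =>
    ⟨zero_le_one, fun δ hδ T hT hd => by simpa using val_le_depth hδ.le T hT _ hd 0⟩
  have hbdd : ∀ j, BddBelow {e | 0 ≤ e ∧ Thin X e (j + 1)} := fun j => ⟨0, fun e he => he.1⟩
  have h0 : ∀ j, 0 ≤ η j := fun j => le_csInf ⟨1, hone j⟩ fun e he => he.1
  have h1 : ∀ j, η j ≤ 1 := fun j => csInf_le (hbdd j) (hone j)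
  have hth : ∀ j, Thin X (η j) (j + 1) := by
    intro j δ hδ T hT hd
    have hp : 0 < δ * ((j + 1 : ℕ) : ℝ) := by positivity
    rw [mul_assoc, ← div_le_iff₀ hp]
    refine le_csInf ⟨1, hone j⟩ fun e he => ?_
    rw [div_le_iff₀ hp, ← mul_assoc]
    exact he.2 δ hδ T hT hd
  let ζ : X → ℝ := fun y => sSup {e | ∃ j, (1 / 2 : ℝ) ^ (j + 1) < ‖y‖ ∧ e = η j}
  have hζ0 : ∀ y, 0 ≤ ζ y := fun y => Real.sSup_nonneg (by rintro e ⟨j, -, rfl⟩; exact h0 j)
  have hζ : ∀ j y, (1 / 2 : ℝ) ^ (j + 1) < ‖y‖ → η j ≤ ζ y := fun j y h =>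
    le_csSup ⟨1, by rintro e ⟨j, -, rfl⟩; exact h1 j⟩ ⟨j, h, rfl⟩
  refine ⟨fun y => if 1 < ‖y‖ then ‖y‖ else 2 * ‖y‖ * ζ y, ?_, ?_⟩
  · refine total_bound h0 h1 hth (fun y => ?_) (fun y hy => by simp [hy]) (fun j y a b => ?_)
    · have := hζ0 y
      split_ifs <;> positivity
    · have c : ‖y‖ ≤ 1 := b.trans (pow_le_one₀ (by norm_num) (by norm_num))
      rw [if_neg (not_lt.2 c)]
      have d := hζ j y a
      have hs : (1 / 2 : ℝ) ^ (j + 1) = (1 / 2) ^ j / 2 := by rw [pow_succ]; ring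
      have hp : (0 : ℝ) < (1 / 2) ^ j := by positivity
      have := h0 j
      nlinarith
  · intro ε hε
    obtain ⟨M, hM⟩ := hA (ε / 2) (by positivity)
    refine ⟨(1 / 2) ^ (M + 1), by positivity, fun y hy => ?_⟩
    have c : ‖y‖ ≤ 1 := hy.trans (pow_le_one₀ (by norm_num) (by norm_num))
    simp only [if_neg (not_lt.2 c)]
    have : ζ y ≤ ε / 2 := by
      refine Real.sSup_le ?_ (by positivity)
      rintro e ⟨j, hj, rfl⟩
      have hlt := hj.trans_le hy
      have : M + 1 < j + 1 := by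
        by_contra hh
        exact absurd hlt (not_lt.2 (pow_le_pow_of_le_one (by norm_num) (by norm_num)
          (not_lt.1 hh)))
      exact csInf_le (hbdd j) ⟨by positivity, hM _ (by omega)⟩
    nlinarith [norm_nonneg y]

variable [NormedSpace ℝ X]

theorem val_convex (T : Tr X) (x z : X) {a b : ℝ} (ha : 0 ≤ a) (hb : 0 ≤ b) (hab : a + b = 1) :
    T.val id (a • x + b • z) ≤ a * T.val id x + b * T.val id z := by
  induction T generalizing x z with
  | leaf =>
    simp only [val]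
    refine (norm_add_le _ _).trans ?_
    rw [norm_smul, norm_smul, Real.norm_of_nonneg ha, Real.norm_of_nonneg hb]
  | node y l r ihl ihr =>
    have h1 := ihl (x + y) (z + y)
    have h2 := ihr (x - y) (z - y)
    have e0 : y = a • y + b • y := by rw [← add_smul, hab, one_smul]
    have e1 : a • x + b • z + y = a • (x + y) + b • (z + y) := by
      rw [smul_add, smul_add]; nth_rewrite 1 [e0]; abel
    have e2 : a • x + b • z - y = a • (x - y) + b • (z - y) := by
      rw [smul_sub, smul_sub]; nth_rewrite 1 [e0]; abel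
    simp only [val, id]; rw [e1, e2]; linarith

theorem exists_potential (hA : ∀ η : ℝ, 0 < η → ∃ M : ℕ, ∀ m ≥ M, Thin X η m) :
    ∃ g : X → ℝ, (∀ x, ‖x‖ + 1 ≤ g x) ∧ (∀ x, g x ≤ ‖x‖ + 5) ∧
      (∀ x z (a b : ℝ), 0 ≤ a → 0 ≤ b → a + b = 1 → g (a • x + b • z) ≤ a * g x + b * g z) ∧
      (∀ x, g (-x) = g x) ∧ (∀ x z, g (x + z) ≤ g x + ‖z‖) ∧
      ∀ ε : ℝ, 0 < ε → ∃ s : ℝ, 0 < s ∧ ∀ x y, ‖y‖ ≤ s →
        g (x + y) + g (x - y) ≤ 2 * g x + ε * ‖y‖ := by
  obtain ⟨κ, hκ, hs⟩ := exists_kappa hA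
  have : Nonempty (Tr X) := ⟨leaf⟩
  let G : X → ℝ := fun x => ⨆ T : Tr X, (T.val id x - T.cost κ)
  have hub : ∀ x (T : Tr X), T.val id x - T.cost κ ≤ ‖x‖ + 4 := fun x T => by
    have := val_lip id T 0 x
    rw [zero_add] at this
    linarith [hκ T]
  have hle : ∀ x (T : Tr X), T.val id x - T.cost κ ≤ G x := fun x T =>
    le_ciSup (f := fun T : Tr X => T.val id x - T.cost κ)
      ⟨‖x‖ + 4, by rintro _ ⟨T, rfl⟩; exact hub x T⟩ T
  have G1 : ∀ x, ‖x‖ ≤ G x := fun x => by simpa [val, cost] using hle x leaf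
  have G2 : ∀ x, G x ≤ ‖x‖ + 4 := fun x => ciSup_le (hub x)
  have G3 : ∀ x z (a b : ℝ), 0 ≤ a → 0 ≤ b → a + b = 1 →
      G (a • x + b • z) ≤ a * G x + b * G z := by
    intro x z a b ha hb hab
    refine ciSup_le fun T => ?_
    have h1 := val_convex T x z ha hb hab
    have h2 := mul_le_mul_of_nonneg_left (hle x T) ha
    have h3 := mul_le_mul_of_nonneg_left (hle z T) hb
    have h4 : T.cost κ = a * T.cost κ + b * T.cost κ := by rw [← add_mul, hab, one_mul]
    linarith
  have G4 : ∀ x z, G (x + z) ≤ G x + ‖z‖ := fun x z => ciSup_le fun T => by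
    linarith [val_lip id T x z, hle x T]
  have G5 : ∀ x y, G (x + y) + G (x - y) ≤ 2 * G x + 2 * κ y := by
    intro x y
    have : G (x - y) ≤ 2 * G x + 2 * κ y - G (x + y) := by
      refine ciSup_le fun T2 => ?_
      have : G (x + y) ≤ 2 * G x + 2 * κ y - (T2.val id (x - y) - T2.cost κ) := by
        refine ciSup_le fun T1 => ?_
        have := hle x (node y T1 T2)
        simp only [val, cost, id] at this
        linarith
      linarith
    linarith
  refine ⟨fun x => (G x + G (-x)) / 2 + 1, fun x => ?_, fun x => ?_, ?_, fun x => ?_,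
    fun x z => ?_, fun ε hε => ?_⟩
  · have := G1 x; have := G1 (-x); rw [norm_neg] at this; linarith
  · have := G2 x; have := G2 (-x); rw [norm_neg] at this; linarith
  · intro x z a b ha hb hab
    have h1 := G3 x z a b ha hb hab
    have h2 := G3 (-x) (-z) a b ha hb hab
    have e : -(a • x + b • z) = a • -x + b • -z := by simp only [smul_neg]; abel
    simp only [e]
    have : a + b = 1 := hab
    nlinarith
  · simp only [neg_neg]; ring
  · have h1 := G4 x z
    have h2 := G4 (-x) (-z)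
    rw [norm_neg, ← neg_add] at h2
    linarith
  · obtain ⟨s, hs0, hs⟩ := hs (ε / 2) (by positivity)
    refine ⟨s, hs0, fun x y hy => ?_⟩
    have h1 := G5 x y
    have h2 := G5 (-x) y
    have e1 : -(x + y) = -x - y := by abel
    have e2 : -(x - y) = -x + y := by abel
    have := hs y hy
    simp only [e1, e2]
    linarith

end Tr

end Vale.Agent.P125
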