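import Vale.Agent.P125.Renorm
import Vale.Agent.P125.Defs

namespace Vale.Agent.P125

open Finset Filter Topology

variable {X : Type*} [NormedAddCommGroup X] [NormedSpace ℝ X]

set_option maxHeartbeats 1000000 in
theorem exists_smooth_norm {g : X → ℝ} (g1 : ∀ x, ‖x‖ + 1 ≤ g x) (g2 : ∀ x, g x ≤ ‖x‖ + 5)
    (g3 : ∀ x z (a b : ℝ), 0 ≤ a → 0 ≤ b → a + b = 1 → g (a • x + b • z) ≤ a * g x + b * g z)
    (g4 : ∀ x, g (-x) = g x) (g5 : ∀ x z, g (x + z) ≤ g x + ‖z‖)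
    (g6 : ∀ ε : ℝ, 0 < ε → ∃ s : ℝ, 0 < s ∧ ∀ x y, ‖y‖ ≤ s →
        g (x + y) + g (x - y) ≤ 2 * g x + ε * ‖y‖) :
    ∃ N : Seminorm ℝ X, (∀ x, ‖x‖ ≤ N x) ∧ (∀ x, N x ≤ 36 * ‖x‖) ∧
      ∀ ε : ℝ, 0 < ε → ∃ s : ℝ, 0 < s ∧ ∀ x y, ‖y‖ ≤ s * ‖x‖ →
        N (x + y) + N (x - y) ≤ 2 * N x + ε * ‖y‖ := by
  have gpos : ∀ x, 0 < g x := fun x => by linarith [g1 x, norm_nonneg x]
  let F : X → ℝ → ℝ := fun x l => l * g (l⁻¹ • x) ^ 2
  let N : X → ℝ := fun x => sInf {r | ∃ l, 0 < l ∧ r = F x l}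
  have hnorm : ∀ (x : X) (l : ℝ), 0 < l → ‖x‖ = l * ‖l⁻¹ • x‖ := fun x l hl => by
    rw [norm_smul, Real.norm_of_nonneg (inv_nonneg.2 hl.le), ← mul_assoc, mul_inv_cancel₀ hl.ne',
      one_mul]
  have hlow : ∀ x l, 0 < l → ‖x‖ ≤ F x l := fun x l hl => by
    have a := g1 (l⁻¹ • x)
    have b := norm_nonneg (l⁻¹ • x)
    rw [hnorm x l hl]
    exact mul_le_mul_of_nonneg_left (by nlinarith) hl.le
  have hle : ∀ x l, 0 < l → N x ≤ F x l := fun x l hl =>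
    csInf_le ⟨‖x‖, by rintro _ ⟨l, hl, rfl⟩; exact hlow x l hl⟩ ⟨l, hl, rfl⟩
  have hge : ∀ x c, (∀ l, 0 < l → c ≤ F x l) → c ≤ N x := fun x c h =>
    le_csInf ⟨_, 1, one_pos, rfl⟩ (by rintro _ ⟨l, hl, rfl⟩; exact h l hl)
  have N1 : ∀ x, ‖x‖ ≤ N x := fun x => hge x _ (hlow x)
  have N2 : ∀ x, N x ≤ 36 * ‖x‖ := fun x => by
    refine le_of_forall_pos_le_add fun ε hε => ?_
    have hl : 0 < ‖x‖ + ε / 36 := by positivity
    refine (hle x _ hl).trans ?_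
    have a := g2 ((‖x‖ + ε / 36)⁻¹ • x)
    have b := hnorm x _ hl
    have c : ‖(‖x‖ + ε / 36)⁻¹ • x‖ ≤ 1 := by
      by_contra h
      have := norm_nonneg x
      nlinarith
    have d := gpos ((‖x‖ + ε / 36)⁻¹ • x)
    have e : g ((‖x‖ + ε / 36)⁻¹ • x) ^ 2 ≤ 36 := by nlinarith
    calc F x (‖x‖ + ε / 36) ≤ (‖x‖ + ε / 36) * 36 := mul_le_mul_of_nonneg_left e hl.le
      _ = 36 * ‖x‖ + ε := by ring
  have N0 : N 0 = 0 := le_antisymm (by simpa using N2 0) (by simpa using N1 0)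
  have Nadd : ∀ x z, N (x + z) ≤ N x + N z := by
    intro x z
    have key : ∀ l m, 0 < l → 0 < m → N (x + z) ≤ F x l + F z m := by
      intro l m hl hm
      have hs : 0 < l + m := by positivity
      refine (hle _ _ hs).trans ?_
      have hab : l / (l + m) + m / (l + m) = 1 := by field_simp
      have h := g3 (l⁻¹ • x) (m⁻¹ • z) (l / (l + m)) (m / (l + m)) (by positivity)
        (by positivity) hab
      have e : (l / (l + m)) • l⁻¹ • x + (m / (l + m)) • m⁻¹ • z = (l + m)⁻¹ • (x + z) := by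
        rw [smul_smul, smul_smul, smul_add]
        congr 2 <;> field_simp
      rw [e] at h
      simp only [F]
      set A := g (l⁻¹ • x)
      set B := g (m⁻¹ • z)
      have h2 : g ((l + m)⁻¹ • (x + z)) ^ 2 ≤ (l / (l + m) * A + m / (l + m) * B) ^ 2 :=
        pow_le_pow_left₀ (gpos _).le h 2
      have h3 : (l + m) * (l / (l + m) * A + m / (l + m) * B) ^ 2 ≤ l * A ^ 2 + m * B ^ 2 := by
        have e2 : (l + m) * (l / (l + m) * A + m / (l + m) * B) ^ 2 =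
            (l * A + m * B) ^ 2 / (l + m) := by field_simp
        rw [e2, div_le_iff₀ hs]
        nlinarith [mul_nonneg (mul_pos hl hm).le (sq_nonneg (A - B))]
      exact (mul_le_mul_of_nonneg_left h2 hs.le).trans h3
    have : N (x + z) - N x ≤ N z := by
      refine hge _ _ fun m hm => ?_
      have : N (x + z) - F z m ≤ N x := hge _ _ fun l hl => by linarith [key l m hl hm]
      linarith
    linarith
  have Nsmul : ∀ (r : ℝ) x, N (r • x) ≤ ‖r‖ * N x := by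
    intro r x
    rcases eq_or_ne r 0 with rfl | hr
    · simp [N0]
    · have hp : 0 < ‖r‖ := norm_pos_iff.2 hr
      rw [mul_comm, ← div_le_iff₀ hp]
      refine hge _ _ fun l hl => ?_
      rw [div_le_iff₀ hp]
      refine (hle _ (‖r‖ * l) (by positivity)).trans (le_of_eq ?_)
      have : g ((‖r‖ * l)⁻¹ • r • x) = g (l⁻¹ • x) := by
        rw [smul_smul]
        rcases lt_or_gt_of_ne hr with h | h
        · rw [← g4 (l⁻¹ • x), ← neg_smul, Real.norm_of_nonpos h.le]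
          congr 2; field_simp
        · rw [Real.norm_of_nonneg h.le]
          congr 2; field_simp
      simp only [F, this]; ring
  refine ⟨Seminorm.ofSMulLE N N0 Nadd Nsmul, N1, N2, fun ε hε => ?_⟩
  obtain ⟨s, hs0, hs⟩ := g6 (ε / 168) (by positivity)
  refine ⟨min (s / 37) (ε / 148), by positivity, fun x y hy => ?_⟩
  change N (x + y) + N (x - y) ≤ 2 * N x + ε * ‖y‖
  rcases eq_or_ne x 0 with rfl | hx
  · have : y = 0 := by simpa using hy
    simp [this, N0]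
  have hxp : 0 < ‖x‖ := norm_pos_iff.2 hx
  have key : ∀ η, 0 < η → η ≤ ‖x‖ → N (x + y) + N (x - y) ≤ 2 * N x + ε * ‖y‖ + 2 * η := by
    intro η hη hη'
    obtain ⟨_, ⟨l, hl, rfl⟩, hlt⟩ := exists_lt_of_csInf_lt (s := {r | ∃ l, 0 < l ∧ r = F x l})
      ⟨_, 1, one_pos, rfl⟩ (show N x < N x + η by linarith)
    have a1 := hle (x + y) l hl
    have a2 := hle (x - y) l hl
    simp only [F, smul_add, smul_sub] at a1 a2 hlt
    have hu := hnorm x l hl
    have hv := hnorm y l hl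
    set u := l⁻¹ • x
    set v := l⁻¹ • y
    have hu0 : 0 < ‖u‖ := by
      by_contra h
      have : ‖u‖ = 0 := le_antisymm (not_lt.1 h) (norm_nonneg _)
      rw [this] at hu; linarith
    have hu37 : ‖u‖ ≤ 37 := by
      have b1 : l * ‖u‖ ^ 2 ≤ l * g u ^ 2 :=
        mul_le_mul_of_nonneg_left (pow_le_pow_left₀ hu0.le (by linarith [g1 u]) 2) hl.le
      have b2 : l * ‖u‖ ^ 2 ≤ 37 * (l * ‖u‖) := by linarith [N2 x]
      have b3 : 0 < l * ‖u‖ := by positivity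
      nlinarith
    have hm : 0 ≤ min (s / 37) (ε / 148) := by positivity
    have hv1 : ‖v‖ ≤ min (s / 37) (ε / 148) * 37 := by
      have : l * ‖v‖ ≤ l * (min (s / 37) (ε / 148) * ‖u‖) := by
        rw [← hv, mul_left_comm, ← hu]; exact hy
      have := le_of_mul_le_mul_left this hl
      nlinarith
    have hv2 : ‖v‖ ≤ s := by linarith [min_le_left (s / 37) (ε / 148)]
    have hv3 : ‖v‖ ≤ ε / 4 := by linarith [min_le_right (s / 37) (ε / 148)]
    have c1 := hs u v hv2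
    have c2 := g5 u v
    have c3 := g5 u (-v)
    have c4 := g5 (u + v) (-v)
    have c5 := g5 (u - v) v
    rw [norm_neg, ← sub_eq_add_neg] at c3 c4
    rw [add_sub_cancel_right] at c4
    rw [sub_add_cancel] at c5
    have c6 : g u ≤ 42 := by linarith [g2 u]
    have c7 := gpos u
    have hv0 := norm_nonneg v
    have d1 : (g (u + v) - g u) ^ 2 ≤ ‖v‖ ^ 2 := sq_le_sq' (by linarith) (by linarith)
    have d2 : (g (u - v) - g u) ^ 2 ≤ ‖v‖ ^ 2 := sq_le_sq' (by linarith) (by linarith)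
    have d3 : g u * (g (u + v) + g (u - v) - 2 * g u) ≤ 42 * (ε / 168 * ‖v‖) := by
      have : g u * (g (u + v) + g (u - v) - 2 * g u) ≤ g u * (ε / 168 * ‖v‖) :=
        mul_le_mul_of_nonneg_left (by linarith) c7.le
      have h2 : 0 ≤ ε / 168 * ‖v‖ := by positivity
      nlinarith
    have d4 : ‖v‖ ^ 2 ≤ ε / 4 * ‖v‖ := by nlinarith
    have d5 : g (u + v) ^ 2 + g (u - v) ^ 2 ≤ 2 * g u ^ 2 + ε * ‖v‖ := by nlinarith
    have d6 := mul_le_mul_of_nonneg_left d5 hl.le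
    rw [hv]
    nlinarith
  refine le_of_forall_pos_le_add fun η hη => ?_
  have := key (min (η / 2) ‖x‖) (by positivity) (min_le_right _ _)
  linarith [min_le_left (η / 2) ‖x‖]

theorem smooth_of_thin (hA : ∀ η : ℝ, 0 < η → ∃ M : ℕ, ∀ m ≥ M, Tr.Thin X η m) :
    ∃ N : Seminorm ℝ X, (∀ x, ‖x‖ ≤ N x) ∧ (∀ x, N x ≤ 36 * ‖x‖) ∧
      ∀ ε : ℝ, 0 < ε → ∃ s : ℝ, 0 < s ∧ ∀ τ, 0 < τ → τ < s → ∀ x y, N x = 1 → N y = 1 →
        (N (x + τ • y) + N (x - τ • y)) / 2 - 1 ≤ ε * τ := by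
  obtain ⟨g, g1, g2, g3, g4, g5, g6⟩ := Tr.exists_potential hA
  obtain ⟨N, N1, N2, N3⟩ := exists_smooth_norm g1 g2 g3 g4 g5 g6
  refine ⟨N, N1, N2, fun ε hε => ?_⟩
  obtain ⟨s, hs0, hs⟩ := N3 ε hε
  refine ⟨s / 36, by positivity, fun τ h0 h1 x y hx hy => ?_⟩
  have a : ‖τ • y‖ ≤ τ := by
    rw [norm_smul, Real.norm_of_nonneg h0.le]
    have := N1 y
    nlinarith
  have b := N2 x
  have c := hs x (τ • y) (by nlinarith)
  rw [hx] at c
  nlinarith

theorem tendsto_modulus (N : Seminorm ℝ X)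
    (h : ∀ ε : ℝ, 0 < ε → ∃ s : ℝ, 0 < s ∧ ∀ τ, 0 < τ → τ < s → ∀ x y, N x = 1 → N y = 1 →
        (N (x + τ • y) + N (x - τ • y)) / 2 - 1 ≤ ε * τ) :
    Tendsto (fun τ => smoothnessModulus N τ / τ) (𝓝[>] 0) (𝓝 0) := by
  rw [Metric.tendsto_nhdsWithin_nhds]
  intro ε hε
  obtain ⟨s, hs0, hs⟩ := h (ε / 2) (by positivity)
  refine ⟨s, hs0, fun τ h0 h1 => ?_⟩
  have h0' : 0 < τ := h0
  rw [Real.dist_eq, sub_zero, abs_of_pos h0'] at h1
  have a : smoothnessModulus N τ ≤ ε / 2 * τ := by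
    refine Real.sSup_le ?_ (by positivity)
    rintro _ ⟨x, y, hx, hy, rfl⟩
    exact hs τ h0' h1 x y hx hy
  have b : 0 ≤ smoothnessModulus N τ := by
    refine Real.sSup_nonneg ?_
    rintro _ ⟨x, y, hx, hy, rfl⟩
    have h2 : (2 : ℝ) • x = (x + τ • y) + (x - τ • y) := by rw [two_smul]; abel
    have h3 := map_add_le_add N (x + τ • y) (x - τ • y)
    rw [← h2, map_smul_eq_mul, hx] at h3
    norm_num at h3
    linarith
  rw [Real.dist_eq, sub_zero, abs_of_nonneg (by positivity), div_lt_iff₀ h0']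
  nlinarith

end Vale.Agent.P125
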