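import Mathlib

namespace Vale.Agent.P125

open Finset

/-- The Markov inequality for a cost function on an additive group. -/
def MI {Y : Type*} [Sub Y] (Ψ : Y → ℝ) (C : ℝ) : Prop :=
  ∀ (S : Type) [Fintype S] [DecidableEq S] (π : S → ℝ) (P : Matrix S S ℝ),
    (∀ i, 0 ≤ π i) → ∑ i, π i = 1 → (∀ i j, 0 ≤ P i j) → (∀ i, ∑ j, P i j = 1) →
    (∀ i j, π i * P i j = π j * P j i) →
    ∀ (f : S → Y) (t : ℕ), 1 ≤ t →
      ∑ i, ∑ j, π i * (P ^ t) i j * Ψ (f j - f i) ≤
        C * (t : ℝ) * ∑ i, ∑ j, π i * P i j * Ψ (f j - f i)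

/-- Dyadic martingale trees. -/
inductive Tr (X : Type*) where
  | leaf : Tr X
  | node (y : X) (l r : Tr X) : Tr X

namespace Tr

variable {X : Type*} [NormedAddCommGroup X] [NormedSpace ℝ X]

def depth : Tr X → ℕ
  | leaf => 0
  | node _ l r => max l.depth r.depth + 1

def small (δ : ℝ) : Tr X → Prop
  | leaf => True
  | node y l r => ‖y‖ ≤ δ ∧ l.small δ ∧ r.small δ

/-- expected terminal norm, with transformed steps -/
noncomputable def val (φ : X → X) : Tr X → X → ℝ
  | leaf, x => ‖x‖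
  | node y l r, x => (l.val φ (x + φ y) + r.val φ (x - φ y)) / 2

noncomputable def cost (k : X → ℝ) : Tr X → ℝ
  | leaf => 0
  | node y l r => k y + (l.cost k + r.cost k) / 2

/-- expected terminal cost with level coefficients -/
noncomputable def ev (ψ : X → ℝ) : Tr X → X → (ℕ → ℝ) → ℝ
  | leaf, x, _ => ψ x
  | node y l r, x, c =>
    (l.ev ψ (x + c 0 • y) (fun i => c (i + 1)) + r.ev ψ (x - c 0 • y) (fun i => c (i + 1))) / 2

theorem val_id_eq (T : Tr X) (x : X) : T.val id x = T.ev (fun z => ‖z‖) x (fun _ => 1) := by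
  induction T generalizing x with
  | leaf => rfl
  | node y l r ihl ihr => simp [val, ev, ihl, ihr]

theorem ev_nonneg {ψ : X → ℝ} (h : ∀ x, 0 ≤ ψ x) (T : Tr X) (x : X) (c : ℕ → ℝ) :
    0 ≤ T.ev ψ x c := by
  induction T generalizing x c with
  | leaf => exact h x
  | node y l r ihl ihr =>
    have := ihl (x + c 0 • y) (fun i => c (i + 1))
    have := ihr (x - c 0 • y) (fun i => c (i + 1))
    simp only [ev]; linarith

theorem ev_zero (ψ : X → ℝ) (T : Tr X) (x : X) (c : ℕ → ℝ) (hc : ∀ i, c i = 0) :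
    T.ev ψ x c = ψ x := by
  induction T generalizing c with
  | leaf => rfl
  | node y l r ihl ihr =>
    simp only [ev, hc 0, zero_smul, add_zero, sub_zero]
    rw [ihl _ (fun i => hc _), ihr _ (fun i => hc _)]; ring

theorem le_ev {ψ : X → ℝ} (h : ∀ x z, ψ x ≤ (ψ (x + z) + ψ (x - z)) / 2) (T : Tr X) (x : X)
    (c : ℕ → ℝ) : ψ x ≤ T.ev ψ x c := by
  induction T generalizing x c with
  | leaf => exact le_rfl
  | node y l r ihl ihr =>
    have := ihl (x + c 0 • y) (fun i => c (i + 1))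
    have := ihr (x - c 0 • y) (fun i => c (i + 1))
    have := h x (c 0 • y)
    simp only [ev]; linarith

theorem ev_mono {ψ : X → ℝ} (h : ∀ x z, ψ x ≤ (ψ (x + z) + ψ (x - z)) / 2) (T : Tr X) (x : X)
    (c d : ℕ → ℝ) (hcd : ∀ i j, c i ≠ 0 → d j ≠ 0 → i < j) :
    T.ev ψ x c ≤ T.ev ψ x (c + d) := by
  induction T generalizing x c d with
  | leaf => exact le_rfl
  | node y l r ihl ihr =>
    by_cases hd : d 0 = 0
    · have h1 := ihl (x + c 0 • y) (fun i => c (i + 1)) (fun i => d (i + 1))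
        (fun i j hi hj => by have := hcd _ _ hi hj; omega)
      have h2 := ihr (x - c 0 • y) (fun i => c (i + 1)) (fun i => d (i + 1))
        (fun i j hi hj => by have := hcd _ _ hi hj; omega)
      simp only [ev, Pi.add_apply, hd, add_zero]
      have e : (fun i => c (i + 1) + d (i + 1)) =
          (fun i => c (i + 1)) + fun i => d (i + 1) := rfl
      rw [e]; linarith
    · have hc : ∀ i, c i = 0 := fun i => by
        by_contra hi
        exact absurd (hcd i 0 hi hd) (Nat.not_lt_zero _)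
      rw [ev_zero ψ _ x c hc]
      exact le_ev h _ _ _

theorem ev_neg {ψ : X → ℝ} (h : ∀ x, ψ (-x) = ψ x) (T : Tr X) (x : X) (c : ℕ → ℝ) :
    T.ev ψ (-x) (-c) = T.ev ψ x c := by
  induction T generalizing x c with
  | leaf => exact h x
  | node y l r ihl ihr =>
    have h1 := ihl (x + c 0 • y) (fun i => c (i + 1))
    have h2 := ihr (x - c 0 • y) (fun i => c (i + 1))
    simp only [ev, Pi.neg_apply]
    rw [← h1, ← h2]
    have e1 : -x + -c 0 • y = -(x + c 0 • y) := by rw [neg_smul]; abel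
    have e2 : -x - -c 0 • y = -(x - c 0 • y) := by rw [neg_smul]; abel
    rw [e1, e2]; rfl

theorem ev_sub {ψ : X → ℝ} {B : ℝ} (h : ∀ x z, ψ (x - z) ≤ B * (ψ x + ψ z)) (T : Tr X)
    (x z : X) (c d : ℕ → ℝ) : T.ev ψ (x - z) (c - d) ≤ B * (T.ev ψ x c + T.ev ψ z d) := by
  induction T generalizing x z c d with
  | leaf => exact h x z
  | node y l r ihl ihr =>
    have h1 := ihl (x + c 0 • y) (z + d 0 • y) (fun i => c (i + 1)) (fun i => d (i + 1))
    have h2 := ihr (x - c 0 • y) (z - d 0 • y) (fun i => c (i + 1)) (fun i => d (i + 1))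
    simp only [ev, Pi.sub_apply]
    have e1 : x - z + (c 0 - d 0) • y = x + c 0 • y - (z + d 0 • y) := by rw [sub_smul]; abel
    have e2 : x - z - (c 0 - d 0) • y = x - c 0 • y - (z - d 0 • y) := by rw [sub_smul]; abel
    have e : (fun i => c (i + 1) - d (i + 1)) =
        (fun i => c (i + 1)) - fun i => d (i + 1) := rfl
    rw [e1, e2, e]; linarith

theorem ev_le {p δ : ℝ} (hp : 0 ≤ p) (hδ : 0 ≤ δ) (T : Tr X) (hT : T.small δ) (n : ℕ)
    (hn : T.depth ≤ n) (x : X) (c : ℕ → ℝ) :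
    T.ev (fun z => ‖z‖ ^ p) x c ≤ (‖x‖ + δ * ∑ i ∈ range n, |c i|) ^ p := by
  induction T generalizing x c n with
  | leaf =>
    refine Real.rpow_le_rpow (norm_nonneg _) ?_ hp
    have : 0 ≤ δ * ∑ i ∈ range n, |c i| := by positivity
    linarith
  | node y l r ihl ihr =>
    obtain ⟨n, rfl⟩ : ∃ m, n = m + 1 := ⟨n - 1, by simp only [depth] at hn; omega⟩
    simp only [depth] at hn
    have h1 := ihl hT.2.1 n (by omega) (x + c 0 • y) (fun i => c (i + 1))
    have h2 := ihr hT.2.2 n (by omega) (x - c 0 • y) (fun i => c (i + 1))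
    have hy : ‖c 0 • y‖ ≤ δ * |c 0| := by
      rw [norm_smul, Real.norm_eq_abs, mul_comm]
      exact mul_le_mul_of_nonneg_right hT.1 (abs_nonneg _)
    have h3 : (‖x + c 0 • y‖ + δ * ∑ i ∈ range n, |c (i + 1)|) ^ p ≤
        (‖x‖ + δ * ∑ i ∈ range (n + 1), |c i|) ^ p := by
      refine Real.rpow_le_rpow (by positivity) ?_ hp
      rw [sum_range_succ', mul_add]
      linarith [norm_add_le x (c 0 • y)]
    have h4 : (‖x - c 0 • y‖ + δ * ∑ i ∈ range n, |c (i + 1)|) ^ p ≤
        (‖x‖ + δ * ∑ i ∈ range (n + 1), |c i|) ^ p := by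
      refine Real.rpow_le_rpow (by positivity) ?_ hp
      rw [sum_range_succ', mul_add]
      linarith [norm_sub_le x (c 0 • y)]
    simp only [ev]; linarith

theorem rpow_mid {p : ℝ} (hp : 1 ≤ p) {a b : ℝ} (ha : 0 ≤ a) (hb : 0 ≤ b) :
    ((a + b) / 2) ^ p ≤ (a ^ p + b ^ p) / 2 := by
  have := (convexOn_rpow hp).2 (Set.mem_Ici.2 ha) (Set.mem_Ici.2 hb)
    (show (0 : ℝ) ≤ 1 / 2 by norm_num) (show (0 : ℝ) ≤ 1 / 2 by norm_num) (by norm_num)
  simp only [smul_eq_mul] at this
  have e : (a + b) / 2 = 1 / 2 * a + 1 / 2 * b := by ring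
  rw [e]; linarith

theorem ev_jensen {p : ℝ} (hp : 1 ≤ p) (T : Tr X) (x : X) (c : ℕ → ℝ) :
    (T.ev (fun z => ‖z‖) x c) ^ p ≤ T.ev (fun z => ‖z‖ ^ p) x c := by
  induction T generalizing x c with
  | leaf => exact le_rfl
  | node y l r ihl ihr =>
    have h1 := ihl (x + c 0 • y) (fun i => c (i + 1))
    have h2 := ihr (x - c 0 • y) (fun i => c (i + 1))
    simp only [ev]
    refine (rpow_mid hp (ev_nonneg (fun _ => norm_nonneg _) _ _ _)
      (ev_nonneg (fun _ => norm_nonneg _) _ _ _)).trans ?_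
    linarith

theorem norm_rpow_mid {p : ℝ} (hp : 1 ≤ p) (x z : X) :
    ‖x‖ ^ p ≤ (‖x + z‖ ^ p + ‖x - z‖ ^ p) / 2 := by
  refine le_trans ?_ (rpow_mid hp (norm_nonneg _) (norm_nonneg _))
  refine Real.rpow_le_rpow (norm_nonneg _) ?_ (by linarith)
  have h : (2 : ℝ) • x = (x + z) + (x - z) := by rw [two_smul]; abel
  have h2 : ‖(2 : ℝ) • x‖ = 2 * ‖x‖ := by rw [norm_smul]; simp
  have := norm_add_le (x + z) (x - z)
  rw [← h, h2] at this
  linarith

omit [NormedSpace ℝ X] in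
theorem norm_rpow_sub {p : ℝ} (hp : 0 ≤ p) (x z : X) :
    ‖x - z‖ ^ p ≤ 2 ^ p * (‖x‖ ^ p + ‖z‖ ^ p) := by
  have h0 : 0 ≤ ‖x‖ ^ p := by positivity
  have h1 : 0 ≤ ‖z‖ ^ p := by positivity
  have h2 : (0 : ℝ) ≤ 2 ^ p := by positivity
  rcases le_total ‖x‖ ‖z‖ with h | h
  · have : ‖x - z‖ ^ p ≤ (2 * ‖z‖) ^ p :=
      Real.rpow_le_rpow (norm_nonneg _) (by linarith [norm_sub_le x z]) hp
    rw [Real.mul_rpow (by norm_num) (norm_nonneg _)] at this
    nlinarith
  · have : ‖x - z‖ ^ p ≤ (2 * ‖x‖) ^ p :=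
      Real.rpow_le_rpow (norm_nonneg _) (by linarith [norm_sub_le x z]) hp
    rw [Real.mul_rpow (by norm_num) (norm_nonneg _)] at this
    nlinarith

theorem ev_markov {ψ : X → ℝ} {C : ℝ} (h : MI ψ C) (T : Tr X) :
    MI (fun u : X × (ℕ → ℝ) => T.ev ψ u.1 u.2) C := by
  induction T with
  | leaf =>
    intro S _ _ π P h1 h2 h3 h4 h5 f t ht
    exact h S π P h1 h2 h3 h4 h5 (fun s => (f s).1) t ht
  | node y l r ihl ihr =>
    intro S _ _ π P h1 h2 h3 h4 h5 f t ht
    have a1 := ihl S π P h1 h2 h3 h4 h5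
      (fun s => ((f s).1 + (f s).2 0 • y, fun i => (f s).2 (i + 1))) t ht
    have a2 := ihr S π P h1 h2 h3 h4 h5
      (fun s => ((f s).1 - (f s).2 0 • y, fun i => (f s).2 (i + 1))) t ht
    have key : ∀ Q : Matrix S S ℝ, ∑ i, ∑ j, π i * Q i j *
        (node y l r).ev ψ (f j - f i).1 (f j - f i).2 =
        (∑ i, ∑ j, π i * Q i j * l.ev ψ ((f j).1 + (f j).2 0 • y - ((f i).1 + (f i).2 0 • y))
          ((fun k => (f j).2 (k + 1)) - fun k => (f i).2 (k + 1)) +
        ∑ i, ∑ j, π i * Q i j * r.ev ψ ((f j).1 - (f j).2 0 • y - ((f i).1 - (f i).2 0 • y))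
          ((fun k => (f j).2 (k + 1)) - fun k => (f i).2 (k + 1))) / 2 := by
      intro Q
      rw [← sum_add_distrib, sum_div]
      refine sum_congr rfl fun i _ => ?_
      rw [← sum_add_distrib, sum_div]
      refine sum_congr rfl fun j _ => ?_
      simp only [ev, Prod.fst_sub, Prod.snd_sub, Pi.sub_apply]
      have e1 : (f j).1 - (f i).1 + ((f j).2 0 - (f i).2 0) • y =
          (f j).1 + (f j).2 0 • y - ((f i).1 + (f i).2 0 • y) := by rw [sub_smul]; abel
      have e2 : (f j).1 - (f i).1 - ((f j).2 0 - (f i).2 0) • y =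
          (f j).1 - (f j).2 0 • y - ((f i).1 - (f i).2 0 • y) := by rw [sub_smul]; abel
      have e : (fun k => (f j).2 (k + 1) - (f i).2 (k + 1)) =
          (fun k => (f j).2 (k + 1)) - fun k => (f i).2 (k + 1) := rfl
      rw [e1, e2, e]; ring
    simp only [Prod.mk_sub_mk] at a1 a2
    simp only [key]
    linarith

theorem ev_subgrad {δ : ℝ} (hδ : 0 ≤ δ) (T : Tr X) (hT : T.small δ) (n : ℕ) (hn : T.depth ≤ n)
    (x : X) :
    ∃ (f : X →L[ℝ] ℝ) (a : ℕ → ℝ), ‖f‖ ≤ 1 ∧ (∀ i, a i ≤ δ) ∧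
      T.ev (fun z => ‖z‖) x (fun _ => 1) = f x + ∑ i ∈ range n, a i ∧
      ∀ z c, f z + ∑ i ∈ range n, c i * a i ≤ T.ev (fun z => ‖z‖) z c := by
  induction T generalizing x n with
  | leaf =>
    obtain ⟨f, hf, hx⟩ := exists_dual_vector'' ℝ x
    refine ⟨f, fun _ => 0, hf, fun _ => hδ, by simp [ev, hx], fun z c => ?_⟩
    have := f.le_opNorm z
    have h2 := le_abs_self (f z)
    rw [Real.norm_eq_abs] at this
    simp only [ev, mul_zero, sum_const_zero, add_zero]
    nlinarith [norm_nonneg z]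
  | node y l r ihl ihr =>
    obtain ⟨n, rfl⟩ : ∃ m, n = m + 1 := ⟨n - 1, by simp only [depth] at hn; omega⟩
    simp only [depth] at hn
    obtain ⟨f1, a1, hf1, ha1, e1, g1⟩ := ihl hT.2.1 n (by omega) (x + y)
    obtain ⟨f2, a2, hf2, ha2, e2, g2⟩ := ihr hT.2.2 n (by omega) (x - y)
    have b1 : |f1 y| ≤ δ := by
      have := f1.le_opNorm y
      rw [Real.norm_eq_abs] at this
      nlinarith [norm_nonneg y, hT.1]
    have b2 : |f2 y| ≤ δ := by
      have := f2.le_opNorm y
      rw [Real.norm_eq_abs] at this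
      nlinarith [norm_nonneg y, hT.1]
    refine ⟨(1 / 2 : ℝ) • (f1 + f2), fun i => match i with
      | 0 => (f1 y - f2 y) / 2
      | i + 1 => (a1 i + a2 i) / 2, ?_, ?_, ?_, fun z c => ?_⟩
    · rw [norm_smul]
      have := norm_add_le f1 f2
      norm_num; linarith
    · intro i
      cases i with
      | zero => have := abs_le.1 b1; have := abs_le.1 b2; simp only; linarith
      | succ i => have := ha1 i; have := ha2 i; simp only; linarith
    · simp only [ev, one_smul, e1, e2, sum_range_succ', ← sum_div, sum_add_distrib, map_add,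
        map_sub, smul_apply, add_apply, smul_eq_mul]
      ring
    · have h1 := g1 (z + c 0 • y) (fun i => c (i + 1))
      have h2 := g2 (z - c 0 • y) (fun i => c (i + 1))
      simp only [map_add, map_sub, map_smul, smul_eq_mul] at h1 h2
      simp only [ev, sum_range_succ', smul_apply,
        add_apply, smul_eq_mul]
      have e : ∑ k ∈ range n, c (k + 1) * ((a1 k + a2 k) / 2) =
          (∑ k ∈ range n, c (k + 1) * a1 k + ∑ k ∈ range n, c (k + 1) * a2 k) / 2 := by
        rw [← sum_add_distrib, sum_div]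
        exact sum_congr rfl fun k _ => by ring
      rw [e]; linarith

end Tr

end Vale.Agent.P125
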